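import Crest.Agent.R52.Prob

/-!
Orthogonality of product characters and Bessel's inequality for i.i.d. finite products.
-/

set_option autoImplicit false
set_option linter.unusedSectionVars false

open Finset

namespace Crest.Agent.R52

variable {ι Γ : Type} [Fintype ι] [DecidableEq ι] [Fintype Γ] {w : Γ → ℝ}

/-- The product character of a one-coordinate function. -/
noncomputable def chi (f : Γ → ℝ) (T : Finset ι) (ω : ι → Γ) : ℝ := ∏ i ∈ T, f (ω i)

@[simp] lemma chi_empty (f : Γ → ℝ) (ω : ι → Γ) : chi f (∅ : Finset ι) ω = 1 := by simp [chi]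

/-- Orthogonality of product characters of a centred function with second moment `v`. -/
lemma Ex_chi_mul_chi (hw : ∑ γ, w γ = 1) {f : Γ → ℝ} {v : ℝ} (h0 : ∑ γ, w γ * f γ = 0)
    (hv : ∑ γ, w γ * (f γ * f γ) = v) (S T : Finset ι) :
    Ex w (fun ω => chi f S ω * chi f T ω) = if S = T then v ^ S.card else 0 := by
  have h1 : ∀ ω : ι → Γ, chi f S ω * chi f T ω =
      ∏ i, ((if i ∈ S then f (ω i) else 1) * (if i ∈ T then f (ω i) else 1)) := by
    intro ω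
    rw [Finset.prod_mul_distrib]
    simp only [Finset.prod_ite_mem, Finset.univ_inter, chi]
  simp only [h1]
  rw [Ex_prod w (fun i γ => (if i ∈ S then f γ else 1) * (if i ∈ T then f γ else 1))]
  split_ifs with hST
  · subst hST
    rw [← Finset.prod_subset (Finset.subset_univ S)]
    · rw [Finset.prod_congr rfl (g := fun _ => v) (fun i hi => by simp [hi, hv]), Finset.prod_const]
    · intro i _ hi; simp [hi, hw]
  · have : ∃ i, ¬ (i ∈ S ↔ i ∈ T) := by
      by_contra h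
      push Not at h
      exact hST (Finset.ext h)
    obtain ⟨i, hi⟩ := this
    refine Finset.prod_eq_zero (Finset.mem_univ i) ?_
    by_cases h1 : i ∈ S <;> by_cases h2 : i ∈ T <;> simp_all

lemma Ex_chi (hw : ∑ γ, w γ = 1) {f : Γ → ℝ} (h0 : ∑ γ, w γ * f γ = 0) (S : Finset ι) :
    Ex w (chi f S) = if S = ∅ then 1 else 0 := by
  have := Ex_chi_mul_chi hw h0 rfl S ∅
  simp only [chi_empty, mul_one] at this
  rw [this]
  split_ifs with h
  · simp [h]
  · rfl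

/-- Second moment of a linear combination of characters. -/
lemma Ex_sq_sum_chi (hw : ∑ γ, w γ = 1) {f : Γ → ℝ} {v : ℝ} (h0 : ∑ γ, w γ * f γ = 0)
    (hv : ∑ γ, w γ * (f γ * f γ) = v) (𝒯 : Finset (Finset ι)) (a : Finset ι → ℝ) :
    Ex w (fun ω => (∑ T ∈ 𝒯, a T * chi f T ω) ^ 2) = ∑ T ∈ 𝒯, a T ^ 2 * v ^ T.card := by
  have h1 : ∀ ω : ι → Γ, (∑ T ∈ 𝒯, a T * chi f T ω) ^ 2 =
      ∑ S ∈ 𝒯, ∑ T ∈ 𝒯, a S * a T * (chi f S ω * chi f T ω) := by
    intro ω
    rw [sq, Finset.sum_mul_sum]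
    exact Finset.sum_congr rfl fun _ _ => Finset.sum_congr rfl fun _ _ => by ring
  simp only [h1]
  rw [Ex_sum]
  refine Finset.sum_congr rfl fun S hS => ?_
  rw [Ex_sum]
  simp only [Ex_const_mul, Ex_chi_mul_chi hw h0 hv]
  rw [Finset.sum_eq_single S]
  · simp [sq]
  · intro T _ hT; simp [Ne.symm hT]
  · intro h; exact absurd hS h

/-- Bessel's inequality, in a division-free form: any `c ≥ 0` with `c * v ≤ 1` works. -/
lemma bessel (hw : IsProb w) {f : Γ → ℝ} {v c : ℝ} (h0 : ∑ γ, w γ * f γ = 0)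
    (hv : ∑ γ, w γ * (f γ * f γ) = v) (hc : 0 ≤ c) (hcv : c * v ≤ 1)
    (𝒯 : Finset (Finset ι)) (F : (ι → Γ) → ℝ) :
    ∑ T ∈ 𝒯, c ^ T.card * (Ex w (fun ω => F ω * chi f T ω)) ^ 2 ≤ Ex w (fun ω => F ω ^ 2) := by
  set α : Finset ι → ℝ := fun T => Ex w (fun ω => F ω * chi f T ω) with hα
  have hv0 : 0 ≤ v := by
    rw [← hv]; exact Finset.sum_nonneg fun γ _ => mul_nonneg (hw.nonneg γ) (mul_self_nonneg _)
  have h1 : 0 ≤ Ex w (fun ω => (F ω - ∑ T ∈ 𝒯, (c ^ T.card * α T) * chi f T ω) ^ 2) :=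
    Ex_nonneg hw.nonneg fun ω => sq_nonneg _
  have h2 : ∀ ω : ι → Γ, (F ω - ∑ T ∈ 𝒯, (c ^ T.card * α T) * chi f T ω) ^ 2 =
      F ω ^ 2 - 2 * (∑ T ∈ 𝒯, (c ^ T.card * α T) * (F ω * chi f T ω)) +
        (∑ T ∈ 𝒯, (c ^ T.card * α T) * chi f T ω) ^ 2 := by
    intro ω
    have : ∑ T ∈ 𝒯, (c ^ T.card * α T) * (F ω * chi f T ω) =
        F ω * ∑ T ∈ 𝒯, (c ^ T.card * α T) * chi f T ω := by
      rw [Finset.mul_sum]; exact Finset.sum_congr rfl fun _ _ => by ring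
    rw [this]; ring
  simp only [h2] at h1
  rw [Ex_add, Ex_sub, Ex_const_mul, Ex_sum, Ex_sq_sum_chi hw.sum_one h0 hv] at h1
  simp only [Ex_const_mul] at h1
  have h3 : ∑ T ∈ 𝒯, (c ^ T.card * α T) ^ 2 * v ^ T.card ≤ ∑ T ∈ 𝒯, c ^ T.card * α T ^ 2 := by
    refine Finset.sum_le_sum fun T _ => ?_
    have : (c ^ T.card * α T) ^ 2 * v ^ T.card = c ^ T.card * α T ^ 2 * (c * v) ^ T.card := by
      rw [mul_pow c v]; ring
    rw [this]
    exact mul_le_of_le_one_right (by positivity) (pow_le_one₀ (by positivity) hcv)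
  have h4 : ∑ T ∈ 𝒯, c ^ T.card * α T * α T = ∑ T ∈ 𝒯, c ^ T.card * α T ^ 2 :=
    Finset.sum_congr rfl fun _ _ => by ring
  change _ ≤ _ - 2 * ∑ T ∈ 𝒯, c ^ T.card * α T * α T + _ at h1
  linarith

/-- The sign of a Boolean. -/
noncomputable def sg (b : Bool) : ℝ := if b then 1 else -1

/-- The centred, normalised Bernoulli variable `(b - σ) / σ`. -/
noncomputable def xi (σ : ℝ) (b : Bool) : ℝ := ((if b then 1 else 0) - σ) / σ

lemma sum_half_sg : ∑ b, bw (1 / 2) b * sg b = 0 := by simp [bw, sg]; norm_num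

lemma sum_half_sg_sq : ∑ b, bw (1 / 2) b * (sg b * sg b) = 1 := by simp [bw, sg]

lemma sum_bw_xi (σ : ℝ) : ∑ b, bw σ b * xi σ b = 0 := by simp [bw, xi]; ring

lemma sum_bw_xi_sq {σ : ℝ} (h : σ ≠ 0) : ∑ b, bw σ b * (xi σ b * xi σ b) = (1 - σ) / σ := by
  simp [bw, xi]; field_simp; ring

lemma xi_false {σ : ℝ} (h : σ ≠ 0) : xi σ false = -1 := by simp [xi]; field_simp

/-- Expansion of the signed kernel. -/
lemma prod_one_add_eq_sum (S : Finset ι) (a b : ι → ℝ) :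
    ∏ i ∈ S, (1 + a i * b i) = ∑ T ∈ S.powerset, (∏ i ∈ T, a i) * ∏ i ∈ T, b i := by
  rw [Finset.prod_one_add]
  exact Finset.sum_congr rfl fun T _ => Finset.prod_mul_distrib

end Crest.Agent.R52
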