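import Crest.Agent.R52.Round
import Crest.Agent.R52.Fourier

/-!
Discrete convexity: sets not covered by few members of a large family form a small family.
-/

set_option autoImplicit false
set_option linter.unusedSectionVars false

open Finset

namespace Crest.Agent.R52

variable {ι : Type} [Fintype ι] [DecidableEq ι]

lemma two_cover_ineq {q : ℝ} (hq0 : 0 < q) (A : (ι → Bool) → Prop) (S : Finset ι)
    (hS : ¬ ∃ x y, A x ∧ A y ∧ ∀ i ∈ S, x i = true ∨ y i = true) :
    Pr (bw q) A ^ 2 ≤ ∑ T ∈ S.powerset.erase ∅,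
      (Ex (bw q) (fun x => ind (A x) * chi (xi q) T x)) ^ 2 := by
  have hzero : ∀ x y : ι → Bool,
      ind (A x) * ind (A y) * ∏ i ∈ S, (1 + (-xi q (x i)) * xi q (y i)) = 0 := by
    intro x y
    by_cases hx : A x
    · by_cases hy : A y
      · have h2 : ¬ ∀ i ∈ S, x i = true ∨ y i = true := fun h => hS ⟨x, y, hx, hy, h⟩
        push Not at h2
        obtain ⟨i, hi, hxi, hyi⟩ := h2
        rw [Finset.prod_eq_zero hi, mul_zero]
        rw [ne_eq, Bool.not_eq_true] at hxi hyi
        rw [hxi, hyi, xi_false hq0.ne']; norm_num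
      · simp [ind_false hy]
    · simp [ind_false hx]
  have hexp : ∀ x y : ι → Bool,
      ind (A x) * ind (A y) * ∏ i ∈ S, (1 + (-xi q (x i)) * xi q (y i)) =
        ∑ T ∈ S.powerset, ((-1) ^ T.card * (ind (A x) * chi (xi q) T x)) *
          (ind (A y) * chi (xi q) T y) := by
    intro x y
    rw [prod_one_add_eq_sum, Finset.mul_sum]
    refine Finset.sum_congr rfl fun T _ => ?_
    have : ∏ i ∈ T, -xi q (x i) = (-1) ^ T.card * chi (xi q) T x := by
      unfold chi
      rw [← Finset.prod_const, ← Finset.prod_mul_distrib]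
      exact Finset.prod_congr rfl fun i _ => by ring
    rw [this]
    unfold chi
    ring
  have h1 : Ex (bw q) (fun x : ι → Bool => Ex (bw q) (fun y : ι → Bool =>
      ∑ T ∈ S.powerset, ((-1) ^ T.card * (ind (A x) * chi (xi q) T x)) *
          (ind (A y) * chi (xi q) T y))) = 0 := by
    simp only [← hexp, hzero, Ex_const (sum_bw q)]
  simp only [Ex_sum, Ex_const_mul, Ex_mul_const] at h1
  rw [← Finset.add_sum_erase _ _ (Finset.empty_mem_powerset S)] at h1
  simp only [Finset.card_empty, pow_zero, one_mul, chi_empty, mul_one] at h1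
  have h2 : -∑ T ∈ S.powerset.erase ∅, (-1) ^ T.card *
        Ex (bw q) (fun x => ind (A x) * chi (xi q) T x) *
        Ex (bw q) (fun x => ind (A x) * chi (xi q) T x) ≤
      ∑ T ∈ S.powerset.erase ∅, (Ex (bw q) (fun x => ind (A x) * chi (xi q) T x)) ^ 2 := by
    rw [← Finset.sum_neg_distrib]
    refine Finset.sum_le_sum fun T _ => ?_
    rcases neg_one_pow_eq_or ℝ T.card with h | h <;> rw [h] <;> nlinarith [sq_nonneg
      (Ex (bw q) (fun x => ind (A x) * chi (xi q) T x))]
  unfold Pr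
  nlinarith

/-- Sets not covered by two members of a family of measure at least `2/3` form a small family. -/
lemma two_cover_small {q : ℝ} (hq0 : 0 < q) (hq1 : q ≤ 1) (A : (ι → Bool) → Prop)
    (hA : 2 / 3 ≤ Pr (bw q) A) (p : ℝ) (hp0 : 0 ≤ p) (hpq : 32768 * p ≤ q) :
    ∃ G : Finset (Finset ι),
      (∀ S : Finset ι, (¬ ∃ x y, A x ∧ A y ∧ ∀ i ∈ S, x i = true ∨ y i = true) →
        ∃ I ∈ G, I ⊆ S) ∧ ∑ I ∈ G, p ^ I.card ≤ 1 / 2 := by
  classical
  obtain ⟨μ, hμ⟩ : ∃ μ, μ = Pr (bw q) A := ⟨_, rfl⟩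
  have hμ0 : 0 < μ := by linarith
  let α : Finset ι → ℝ := fun T => Ex (bw q) (fun x => ind (A x) * chi (xi q) T x)
  let g : Finset ι → ℝ := fun T => if T = ∅ then 0 else α T ^ 2 / μ ^ 2
  obtain ⟨G, hG1, hG2⟩ := round_cover (Finset.univ.filter (fun S : Finset ι =>
      ¬ ∃ x y, A x ∧ A y ∧ ∀ i ∈ S, x i = true ∨ y i = true)) q hq0.le g
    (fun T => by simp only [g]; split_ifs <;> positivity)
    (fun S hS => by
      have h1 := two_cover_ineq hq0 A S (Finset.mem_filter.1 hS).2
      rw [← Finset.add_sum_erase _ _ (Finset.empty_mem_powerset S)]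
      have h2 : ∑ T ∈ S.powerset.erase ∅, g T = (∑ T ∈ S.powerset.erase ∅, α T ^ 2) / μ ^ 2 := by
        rw [Finset.sum_div]
        exact Finset.sum_congr rfl fun T hT => by simp [g, Finset.ne_of_mem_erase hT]
      rw [h2, ← hμ] at *
      simp only [g, if_true, zero_add]
      rw [le_div_iff₀ (by positivity), one_mul]
      exact h1)
    (by
      have hb := bessel (isProb_bw hq0.le hq1) (sum_bw_xi q) (sum_bw_xi_sq hq0.ne') hq0.le
        (by rw [mul_div_cancel₀ _ hq0.ne']; linarith) Finset.univ (fun x => ind (A x))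
      simp only [sq (ind _), ind_mul_self] at hb
      rw [← Finset.add_sum_erase _ _ (Finset.mem_univ (∅ : Finset ι))] at hb ⊢
      simp only [Finset.card_empty, pow_zero, one_mul, chi_empty, mul_one] at hb
      have h2 : ∑ T ∈ Finset.univ.erase (∅ : Finset ι), g T * q ^ T.card =
          (∑ T ∈ Finset.univ.erase (∅ : Finset ι), q ^ T.card * α T ^ 2) / μ ^ 2 := by
        rw [Finset.sum_div]
        refine Finset.sum_congr rfl fun T hT => ?_
        simp only [g, Finset.ne_of_mem_erase hT, if_false]; ring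
      rw [h2]
      simp only [g, if_true, zero_mul, zero_add]
      rw [div_le_iff₀ (by positivity)]
      have h3 : Ex (bw q) (fun x => ind (A x)) = μ := hμ.symm
      rw [h3] at hb
      rw [← hμ] at hA
      nlinarith) p hp0 hpq
  exact ⟨G, fun S hS => hG1 S (Finset.mem_filter.2 ⟨Finset.mem_univ _, hS⟩), hG2⟩

/-- The support of a point of the cube. -/
def supp (x : ι → Bool) : Finset ι := Finset.univ.filter (fun i => x i = true)

lemma Pr_supp_mem (p : ℝ) (D : Finset (Finset ι)) :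
    Pr (bw p) (fun x : ι → Bool => supp x ∈ D) =
      ∑ S ∈ D, p ^ S.card * (1 - p) ^ (Fintype.card ι - S.card) := by
  have h1 : ∀ x : ι → Bool, ind (supp x ∈ D) =
      ∑ S ∈ D, ∏ i, ind (x i = decide (i ∈ S)) := by
    intro x
    have h2 : ∀ S : Finset ι, ∏ i, ind (x i = decide (i ∈ S)) = if supp x = S then 1 else 0 := by
      intro S
      rw [← ind_forall, ← ind_eq_ite]
      refine ind_congr ⟨fun h => ?_, fun h i _ => ?_⟩
      · ext i
        simp [supp, h i (Finset.mem_univ i)]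
      · rw [← h]
        cases hx : x i <;> simp [supp, hx]
    rw [Finset.sum_congr rfl (fun S _ => h2 S), Finset.sum_ite_eq, ind_eq_ite]
  unfold Pr
  simp only [h1]
  rw [Ex_sum]
  refine Finset.sum_congr rfl fun S _ => ?_
  rw [Ex_prod (bw p) (fun i b => ind (b = decide (i ∈ S)))]
  have h3 : ∀ i, ∑ b, bw p b * ind (b = decide (i ∈ S)) = if i ∈ S then p else 1 - p := by
    intro i
    by_cases hi : i ∈ S <;> simp [hi, ind_eq_ite, bw]
  simp only [h3]
  rw [Finset.prod_ite, Finset.prod_const, Finset.prod_const]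
  congr 2
  · simp
  · rw [← Finset.card_compl]
    congr 1
    ext i; simp

/-- Weights of the colour patterns: no colour, all colours, one colour. -/
noncomputable def cw (L : ℕ) (a b c : ℝ) : Option (Option (Fin L)) → ℝ
  | none => a
  | some none => b
  | some (some _) => c

/-- Membership of a colour in a pattern. -/
def cmem {L : ℕ} (j : Fin L) : Option (Option (Fin L)) → Bool
  | none => false
  | some none => true
  | some (some i) => decide (i = j)

lemma colour_split {L : ℕ} (hL : 0 < L) {a b c p : ℝ} (ha : 0 ≤ a) (hb : 0 ≤ b) (hc : 0 ≤ c)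
    (hsum : a + b + L * c = 1) (hp : b + c = p) (D : Finset (Finset ι)) :
    1 - L * (1 - Pr (bw p) (fun x : ι → Bool => supp x ∈ D)) ≤
      Pr (bw (1 - a)) (fun x : ι → Bool => ∃ f : Fin L → Finset ι, (∀ j, f j ∈ D) ∧
        ∀ i, x i = true → ∃ j, i ∈ f j) := by
  have hw : IsProb (cw L a b c) := by
    refine ⟨fun γ => ?_, ?_⟩
    · rcases γ with _ | _ | _ <;> simpa [cw]
    · simp [Fintype.sum_option, cw]; linarith
  have h1 : ∀ j : Fin L, Pr (cw L a b c)
      (fun ω : ι → Option (Option (Fin L)) => ¬ supp (fun i => cmem j (ω i)) ∈ D) =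
      1 - Pr (bw p) (fun x : ι → Bool => supp x ∈ D) := by
    intro j
    rw [Pr_not hw.sum_one]
    congr 1
    refine Ex_map (cw L a b c) (bw p) (cmem j) ?_ (fun x => ind (supp x ∈ D))
    intro γ'
    have e1 : ∑ i : Fin L, (if i = j then (0 : ℝ) else c) = L * c - c := by
      have : ∀ i : Fin L, (if i = j then (0 : ℝ) else c) = c - if i = j then c else 0 := by
        intro i; split_ifs <;> simp
      simp [this]
    cases γ'
    · simp [Fintype.sum_option, cw, cmem, bw, e1]; linarith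
    · simp [Fintype.sum_option, cw, cmem, bw]; linarith
  have h2 : Pr (bw (1 - a)) (fun x : ι → Bool => ∃ f : Fin L → Finset ι, (∀ j, f j ∈ D) ∧
        ∀ i, x i = true → ∃ j, i ∈ f j) =
      Pr (cw L a b c) (fun ω : ι → Option (Option (Fin L)) =>
        ∃ f : Fin L → Finset ι, (∀ j, f j ∈ D) ∧ ∀ i, (ω i).isSome = true → ∃ j, i ∈ f j) := by
    refine (Ex_map (cw L a b c) (bw (1 - a)) Option.isSome ?_ (fun x => ind
      (∃ f : Fin L → Finset ι, (∀ j, f j ∈ D) ∧ ∀ i, x i = true → ∃ j, i ∈ f j))).symm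
    intro γ'
    cases γ'
    · simp [Fintype.sum_option, cw, bw]
    · simp [Fintype.sum_option, cw, bw]; linarith
  rw [h2]
  have h3 := Pr_exists_le hw.nonneg (Finset.univ : Finset (Fin L))
    (fun j (ω : ι → Option (Option (Fin L))) => ¬ supp (fun i => cmem j (ω i)) ∈ D)
  simp only [h1, Finset.sum_const, Finset.card_univ, Fintype.card_fin, nsmul_eq_mul] at h3
  have h4 := Pr_not (ι := ι) hw.sum_one (fun ω : ι → Option (Option (Fin L)) =>
    ∃ j ∈ (Finset.univ : Finset (Fin L)), ¬ supp (fun i => cmem j (ω i)) ∈ D)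
  refine le_trans (by linarith) (h4.symm.le.trans (Pr_mono hw.nonneg fun ω h => ?_))
  push Not at h
  refine ⟨fun j => supp (fun i => cmem j (ω i)), fun j => h j (Finset.mem_univ j), fun i hi => ?_⟩
  rcases hω : ω i with _ | _ | j
  · simp [hω] at hi
  · refine ⟨⟨0, hL⟩, Finset.mem_filter.2 ⟨Finset.mem_univ _, ?_⟩⟩
    show cmem _ (ω i) = true
    rw [hω]; rfl
  · refine ⟨j, Finset.mem_filter.2 ⟨Finset.mem_univ _, ?_⟩⟩
    show cmem _ (ω i) = true
    rw [hω]; simp [cmem]

lemma combine_two {L k : ℕ} (hL : 0 < L) (hk : 2 * L ≤ k) (D : Finset (Finset ι))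
    (S : Finset ι) (x y : ι → Bool)
    (hx : ∃ f : Fin L → Finset ι, (∀ j, f j ∈ D) ∧ ∀ i, x i = true → ∃ j, i ∈ f j)
    (hy : ∃ f : Fin L → Finset ι, (∀ j, f j ∈ D) ∧ ∀ i, y i = true → ∃ j, i ∈ f j)
    (hS : ∀ i ∈ S, x i = true ∨ y i = true) :
    ∃ f : Fin k → Finset ι, (∀ i, f i ∈ D) ∧ S ⊆ Finset.univ.biUnion f := by
  obtain ⟨f1, h1, h1'⟩ := hx
  obtain ⟨f2, h2, h2'⟩ := hy
  refine ⟨fun i => if (i : ℕ) < L then f1 ⟨i % L, Nat.mod_lt _ hL⟩
    else f2 ⟨i % L, Nat.mod_lt _ hL⟩, fun i => ?_, fun i hi => ?_⟩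
  · dsimp only
    split_ifs
    · exact h1 _
    · exact h2 _
  · rw [Finset.mem_biUnion]
    rcases hS i hi with h | h
    · obtain ⟨j, hj⟩ := h1' i h
      have := j.2
      refine ⟨⟨j, by omega⟩, Finset.mem_univ _, ?_⟩
      have e : (⟨(j : ℕ) % L, Nat.mod_lt _ hL⟩ : Fin L) = j :=
        Fin.ext (Nat.mod_eq_of_lt this)
      simp only [this, if_true, e]
      exact hj
    · obtain ⟨j, hj⟩ := h2' i h
      have := j.2
      refine ⟨⟨j + L, by omega⟩, Finset.mem_univ _, ?_⟩
      have e : (⟨((j : ℕ) + L) % L, Nat.mod_lt _ hL⟩ : Fin L) = j :=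
        Fin.ext (by simp [Nat.mod_eq_of_lt this])
      have e2 : ¬ ((j : ℕ) + L < L) := by omega
      simp only [e2, if_false, e]
      exact hj

theorem discrete_convexity {k : ℕ} (hk : 3 * 32768 ≤ k) (p : ℝ) (hp0 : 0 < p) (hp1 : p < 1)
    (D : Finset (Finset ι))
    (hD : 1 - 1 / (k : ℝ) ≤ ∑ S ∈ D, p ^ S.card * (1 - p) ^ (Fintype.card ι - S.card)) :
    ∃ G : Finset (Finset ι),
      (∀ S : Finset ι, (∀ f : Fin k → Finset ι, (∀ i, f i ∈ D) → ¬ S ⊆ Finset.univ.biUnion f) →
        ∃ I ∈ G, I ⊆ S) ∧ ∑ I ∈ G, p ^ I.card ≤ 1 / 2 := by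
  rw [← Pr_supp_mem] at hD
  have hk' : (3 * 32768 : ℝ) ≤ k := by exact_mod_cast hk
  have hb : 2 / 3 ≤ 1 - ((32768 : ℕ) : ℝ) * (1 - Pr (bw p) (fun x : ι → Bool => supp x ∈ D)) := by
    have : 1 / (k : ℝ) ≤ 1 / (3 * 32768) := one_div_le_one_div_of_le (by norm_num) hk'
    push_cast
    linarith
  have hcomb := @combine_two ι _ _ 32768 k (by norm_num) (by omega) D
  rcases le_or_gt (32768 * p) 1 with hsmall | hlarge
  · have h1 := colour_split (L := 32768) (by norm_num) (a := 1 - 32768 * p) (b := 0) (c := p)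
      (p := p) (by linarith) le_rfl hp0.le (by push_cast; ring) (by ring) D
    rw [show 1 - (1 - 32768 * p) = 32768 * p by ring] at h1
    obtain ⟨G, hG1, hG2⟩ := two_cover_small (by positivity) hsmall _ (hb.trans h1) p hp0.le le_rfl
    refine ⟨G, fun S hS => hG1 S ?_, hG2⟩
    rintro ⟨x, y, hx, hy, h⟩
    obtain ⟨f, hf1, hf2⟩ := hcomb S x y hx hy h
    exact hS f hf1 hf2
  · have h1 := colour_split (L := 32768) (by norm_num) (a := 0) (b := p - (1 - p) / 32767)
      (c := (1 - p) / 32767) (p := p) le_rfl (by linarith) (by linarith)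
      (by push_cast; ring) (by ring) D
    have h2 := hb.trans h1
    have h3 : ∃ f : Fin 32768 → Finset ι, (∀ j, f j ∈ D) ∧
        ∀ i, (fun _ : ι => true) i = true → ∃ j, i ∈ f j := by
      by_contra hcon
      have h4 : Pr (bw (1 - 0)) (fun x : ι → Bool => ∃ f : Fin 32768 → Finset ι,
          (∀ j, f j ∈ D) ∧ ∀ i, x i = true → ∃ j, i ∈ f j) = 0 := by
        unfold Pr Ex
        refine Finset.sum_eq_zero fun x _ => ?_
        by_cases hx : x = fun _ => true
        · subst hx
          exact mul_eq_zero_of_right _ (ind_false hcon)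
        · obtain ⟨i, hi⟩ := Function.ne_iff.1 hx
          have : pw (bw (1 - 0)) x = 0 :=
            Finset.prod_eq_zero (Finset.mem_univ i) (by simp [bw, hi])
          rw [this, zero_mul]
      rw [h4] at h2
      norm_num at h2
    refine ⟨∅, fun S hS => ?_, by simp⟩
    obtain ⟨f, hf1, hf2⟩ := hcomb S _ _ h3 h3 (fun _ _ => Or.inl rfl)
    exact absurd hf2 (hS f hf1)

end Crest.Agent.R52
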