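import Crest.Agent.R52.Fourier
import Crest.Prelude.Def_CopyThreshold

/-!
Definitions for the graph part (S0073) of result 52.
-/

set_option autoImplicit false

open Finset

namespace Crest.Agent.R52

open Crest.CombinatoricsR.RandomGraph

/-- The edge slot of two distinct vertices. -/
def slot {n : ℕ} (a b : Fin n) (h : a ≠ b) : EdgeSlot n := ⟨s(a, b), by simpa using h⟩

/-- The action of a vertex permutation on edge slots. -/
def act {n : ℕ} (π : Equiv.Perm (Fin n)) (e : EdgeSlot n) : EdgeSlot n :=
  ⟨e.1.map π, by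
    have := e.2
    rwa [Sym2.isDiag_map π.injective]⟩

lemma act_slot {n : ℕ} (π : Equiv.Perm (Fin n)) (a b : Fin n) (h : a ≠ b) :
    act π (slot a b h) = slot (π a) (π b) (fun h' => h (π.injective h')) := rfl

lemma act_one {n : ℕ} (e : EdgeSlot n) : act 1 e = e := by
  apply Subtype.ext
  simp [act]

lemma act_mul {n : ℕ} (π σ : Equiv.Perm (Fin n)) (e : EdgeSlot n) :
    act (π * σ) e = act π (act σ e) := by
  apply Subtype.ext
  simp [act, Sym2.map_map]

lemma act_injective {n : ℕ} (π : Equiv.Perm (Fin n)) : Function.Injective (act π) := by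
  intro e e' h
  have := congrArg (act π⁻¹) h
  rwa [← act_mul, ← act_mul, inv_mul_cancel, act_one, act_one] at this

lemma graphOf_adj {n : ℕ} (ω : EdgeSlot n → Bool) (a b : Fin n) :
    (graphOf ω).Adj a b ↔ ∃ h : a ≠ b, ω (slot a b h) = true := by
  simp only [graphOf, SimpleGraph.fromEdgeSet_adj, Set.mem_ofPred_eq, slot]
  constructor
  · rintro ⟨⟨_, h2⟩, h3⟩
    exact ⟨h3, h2⟩
  · rintro ⟨h1, h2⟩
    exact ⟨⟨by simpa using h1, h2⟩, h1⟩

/-- The outcome `ω` contains a relabelled copy of the graph whose edges join each vertex `a`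
to its parents `b ∈ N a`. -/
def Contains {n : ℕ} (ω : EdgeSlot n → Bool) (N : Fin n → Finset (Fin n)) : Prop :=
  ∃ π : Equiv.Perm (Fin n), ∀ a, ∀ b ∈ N a, (graphOf ω).Adj (π a) (π b)

/-- Thinning of the parent sets by signs. -/
def thin {n : ℕ} (N : Fin n → Finset (Fin n)) (s : Fin n × Fin n → Bool) :
    Fin n → Finset (Fin n) := fun a => (N a).filter (fun b => s (a, b) = true)

/-- Average (over a uniformly random thinning) probability that the random graph of density `ρ`
misses the thinned graph. -/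
noncomputable def failAvg {n : ℕ} (ρ : ℝ) (N : Fin n → Finset (Fin n)) : ℝ :=
  Ex (bw (1 / 2)) (fun s : Fin n × Fin n → Bool =>
    Pr (bw ρ) (fun ω : EdgeSlot n → Bool => ¬ Contains ω (thin N s)))

end Crest.Agent.R52
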