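import Crest.Agent.R52.LayerDom

/-!
The one-layer matching lemma of result 52.
-/

set_option autoImplicit false
set_option linter.unusedSectionVars false

open Finset

namespace Crest.Agent.R52

namespace Layer

variable {A B Y : Type} [Fintype A] [DecidableEq A] [Fintype B] [DecidableEq B]
  [Fintype Y] [DecidableEq Y]

/-- Lower tail for the number of right vertices whose sample lies in an event. -/
lemma lower_tail {w : Bool → ℝ} (hw : IsProb w) (U : (B → Bool) → Prop) :
    Pr w (fun R : Y × B → Bool =>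
      ∑ y, ind (U (fun b => R (y, b))) < Fintype.card Y * Pr w U / 4) ≤
      Real.exp (-(Fintype.card Y * Pr w U / 4)) := by
  set x : ℝ := Fintype.card Y * Pr w U with hx
  have hx0 : 0 ≤ x := mul_nonneg (by positivity) (Pr_nonneg hw.nonneg U)
  have h1 : Pr w (fun R : Y × B → Bool => ∑ y, ind (U (fun b => R (y, b))) < x / 4) ≤
      Ex w (fun R : Y × B → Bool =>
        Real.exp (x / 4) * Real.exp (-1 * ∑ y, ind (U (fun b => R (y, b))))) := by
    refine Pr_le_of_le hw.nonneg (fun R => by positivity) (fun R hR => ?_)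
    rw [← Real.exp_add]
    exact Real.one_le_exp (by linarith)
  rw [Ex_const_mul, Ex_curry] at h1
  have h2 := Ex_exp_sum_ind (ι := Y) (isProb_pw (ι := B) hw) (fun _ R => U R) (-1)
  have h3 : ∑ _y : Y, ∑ γ : B → Bool, pw w γ * ind (U γ) = x := by
    rw [Finset.sum_const, Finset.card_univ, nsmul_eq_mul]; rfl
  rw [h3] at h2
  have h4 : Real.exp (-1) ≤ 1 / 2 := by
    rw [Real.exp_neg, ← one_div]
    refine one_div_le_one_div_of_le (by norm_num) ?_
    have := Real.add_one_le_exp 1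
    linarith
  calc _ ≤ _ := h1
    _ ≤ Real.exp (x / 4) * Real.exp ((Real.exp (-1) - 1) * x) :=
        mul_le_mul_of_nonneg_left h2 (Real.exp_pos _).le
    _ ≤ _ := by
        rw [← Real.exp_add]
        exact Real.exp_le_exp.2 (by nlinarith)

/-- Upper tail for the number of left vertices whose sample lies in an event. -/
lemma upper_tail {w : Bool → ℝ} (hw : IsProb w) (U : A → (B → Bool) → Prop) {x : ℝ}
    (hx : ∑ a, Pr w (U a) ≤ x / 32) :
    Pr w (fun s : A × B → Bool => x / 4 ≤ ∑ a, ind (U a (fun b => s (a, b)))) ≤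
      Real.exp (-(x / 4)) := by
  have h1 : Pr w (fun s : A × B → Bool => x / 4 ≤ ∑ a, ind (U a (fun b => s (a, b)))) ≤
      Ex w (fun s : A × B → Bool =>
        Real.exp (-(x / 2)) * Real.exp (2 * ∑ a, ind (U a (fun b => s (a, b))))) := by
    refine Pr_le_of_le hw.nonneg (fun R => by positivity) (fun R hR => ?_)
    rw [← Real.exp_add]
    exact Real.one_le_exp (by linarith)
  rw [Ex_const_mul, Ex_curry] at h1
  have h2 := Ex_exp_sum_ind (ι := A) (isProb_pw (ι := B) hw) U 2
  have h3 : ∑ a, ∑ γ : B → Bool, pw w γ * ind (U a γ) = ∑ a, Pr w (U a) := rfl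
  rw [h3] at h2
  have h4 : Real.exp 2 ≤ 9 := by
    have h5 : Real.exp 2 = Real.exp 1 * Real.exp 1 := by rw [← Real.exp_add]; norm_num
    have h6 := Real.exp_one_lt_d9
    have h7 := Real.exp_pos 1
    rw [h5]; nlinarith
  have h5 : 0 ≤ ∑ a, Pr w (U a) := Finset.sum_nonneg fun a _ => Pr_nonneg hw.nonneg _
  calc _ ≤ _ := h1
    _ ≤ Real.exp (-(x / 2)) * Real.exp ((Real.exp 2 - 1) * ∑ a, Pr w (U a)) :=
        mul_le_mul_of_nonneg_left h2 (Real.exp_pos _).le
    _ ≤ _ := by
        rw [← Real.exp_add]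
        exact Real.exp_le_exp.2 (by nlinarith)

/-- The deterministic step: Hall's condition from the absence of bad containers. -/
lemma exists_matching (N : A → Finset B) (D : ℕ) (hD : ∀ a, (N a).card ≤ D)
    {σ : ℝ} (hσ0 : 0 < σ) (hσ1 : σ ≤ 1) (s : A × B → Bool) (R : Y × B → Bool)
    (x : Finset (Finset B) → ℝ)
    (h : ∀ C ⊆ Finset.univ.biUnion (fun a => (N a).powerset), C.Nonempty →
      (C.card : ℝ) * (σ ^ D / 2) ≤ Pr (bw σ) (up C) →
      x C ≤ ∑ y, ind (up C (fun b => R (y, b))) ∧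
        ∑ a, ind (cl σ C (cut (N a) (fun b => s (a, b)))) < x C) :
    ∃ φ : A → Y, Function.Injective φ ∧
      ∀ a, ∀ b ∈ N a, s (a, b) = true → R (φ a, b) = true := by
  classical
  refine (Fintype.all_card_le_filter_rel_iff_exists_injective
    (fun (a : A) (y : Y) => ∀ b ∈ N a, s (a, b) = true → R (y, b) = true)).1 fun U => ?_
  rcases U.eq_empty_or_nonempty with rfl | hU
  · simp
  set sa : A → Finset B := fun a => (N a).filter (fun b => s (a, b) = true) with hsa
  obtain ⟨C, hCG, hC0, hC1, hC2⟩ := exists_container hσ0 hσ1 D (U.image sa) (hU.image _) (by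
    intro S hS
    obtain ⟨a, _, rfl⟩ := Finset.mem_image.1 hS
    exact (Finset.card_filter_le _ _).trans (hD a))
  obtain ⟨h1, h2⟩ := h C (fun S hS => by
    obtain ⟨a, _, rfl⟩ := Finset.mem_image.1 (hCG hS)
    exact Finset.mem_biUnion.2 ⟨a, Finset.mem_univ _,
      Finset.mem_powerset.2 (Finset.filter_subset _ _)⟩) hC0 hC1
  rw [sum_ind_eq_card] at h1 h2
  have h3 : U ⊆ Finset.univ.filter (fun a => cl σ C (cut (N a) (fun b => s (a, b)))) := by
    intro a ha
    refine Finset.mem_filter.2 ⟨Finset.mem_univ _, ?_⟩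
    have h4 := hC2 _ (Finset.mem_image_of_mem sa ha)
    have h5 : cut (N a) (fun b => s (a, b)) = fun b => decide (b ∈ sa a) := by
      funext b; simp [cut, hsa]
    rwa [h5]
  have h4 : Finset.univ.filter (fun y => up C (fun b => R (y, b))) ⊆
      Finset.univ.filter (fun y => ∃ a ∈ U, ∀ b ∈ N a, s (a, b) = true → R (y, b) = true) := by
    intro y hy
    obtain ⟨S, hS, hR⟩ := (Finset.mem_filter.1 hy).2
    obtain ⟨a, ha, rfl⟩ := Finset.mem_image.1 (hCG hS)
    exact Finset.mem_filter.2 ⟨Finset.mem_univ _, a, ha, fun b hb hs =>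
      hR b (Finset.mem_filter.2 ⟨hb, hs⟩)⟩
  have h5 := Finset.card_le_card h3
  have h6 := Finset.card_le_card h4
  have h7 := Nat.cast_lt.1 (h2.trans_le h1)
  convert (h5.trans h7.le).trans h6

lemma sum_pow_card_le {α : Type} [DecidableEq α] (UU : Finset α) {z M : ℝ} (hz : 0 ≤ z)
    (hM : (UU.card : ℝ) ≤ M) (hMz : M * z ≤ 1) :
    ∑ C ∈ UU.powerset.erase ∅, z ^ C.card ≤ 2 * (M * z) := by
  have h1 : ∑ C ∈ UU.powerset, z ^ C.card = (1 + z) ^ UU.card := by
    rw [← Finset.prod_const, Finset.prod_one_add]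
    exact Finset.sum_congr rfl fun C _ => by rw [Finset.prod_const]
  rw [← Finset.add_sum_erase _ _ (Finset.empty_mem_powerset UU)] at h1
  have h2 : (1 + z) ^ UU.card ≤ Real.exp (M * z) := by
    calc (1 + z) ^ UU.card ≤ Real.exp z ^ UU.card :=
          pow_le_pow_left₀ (by linarith) (by linarith [Real.add_one_le_exp z]) _
      _ = Real.exp (UU.card * z) := (Real.exp_nat_mul z UU.card).symm
      _ ≤ _ := Real.exp_le_exp.2 (mul_le_mul_of_nonneg_right hM hz)
  have hMz0 : 0 ≤ M * z := mul_nonneg (le_trans (by positivity) hM) hz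
  have h3 := Real.abs_exp_sub_one_le (x := M * z) (by rwa [abs_of_nonneg hMz0])
  rw [abs_of_nonneg hMz0] at h3
  have h4 := le_abs_self (Real.exp (M * z) - 1)
  simp only [Finset.card_empty, pow_zero] at h1
  linarith

end Layer

open Layer in
/-- One-layer matching lemma. -/
theorem layer {A B Y : Type} [Fintype A] [DecidableEq A] [Fintype B] [DecidableEq B]
    [Fintype Y] [DecidableEq Y] (N : A → Finset B) (D : ℕ) (hD : ∀ a, (N a).card ≤ D)
    (σ : ℝ) (hσ0 : 0 < σ) (hσ1 : σ ≤ 1) (hA : 128 * Fintype.card A ≤ Fintype.card Y)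
    (hspread : ∀ S : Finset B, S.Nonempty →
      ((Finset.univ.filter (fun a => S ⊆ N a)).card : ℝ) ≤ Fintype.card Y * (σ / 256) ^ S.card)
    (hε : (Fintype.card A : ℝ) * 2 ^ D * Real.exp (-(Fintype.card Y * σ ^ D / 8)) ≤ 1) :
    Ex (bw (1 / 2)) (fun s : A × B → Bool =>
      Pr (bw (1 - (1 - σ) ^ 2)) (fun R : Y × B → Bool =>
        ¬ ∃ φ : A → Y, Function.Injective φ ∧
          ∀ a, ∀ b ∈ N a, s (a, b) = true → R (φ a, b) = true)) ≤
      4 * ((Fintype.card A : ℝ) * 2 ^ D * Real.exp (-(Fintype.card Y * σ ^ D / 8))) := by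
  classical
  have hhalf : IsProb (bw (1 / 2)) := isProb_bw (by norm_num) (by norm_num)
  have hσρ : σ ≤ 1 - (1 - σ) ^ 2 := by nlinarith
  have hρ1 : 1 - (1 - σ) ^ 2 ≤ 1 := by nlinarith
  set ρ := 1 - (1 - σ) ^ 2 with hρdef
  have hρ : IsProb (bw ρ) := isProb_bw (hσ0.le.trans hσρ) hρ1
  set m : ℝ := (Fintype.card Y : ℝ) with hm
  have hm0 : 0 ≤ m := by positivity
  have hA' : 128 * (Fintype.card A : ℝ) ≤ m := by rw [hm]; exact_mod_cast hA
  set z := Real.exp (-(m * σ ^ D / 8)) with hz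
  set UU : Finset (Finset B) := Finset.univ.biUnion (fun a => (N a).powerset) with hUU
  have hUUcard : (UU.card : ℝ) ≤ (Fintype.card A : ℝ) * 2 ^ D := by
    have : UU.card ≤ Fintype.card A * 2 ^ D := by
      refine Finset.card_biUnion_le.trans ?_
      calc ∑ a, ((N a).powerset).card ≤ ∑ _a : A, 2 ^ D := Finset.sum_le_sum fun a _ => by
            rw [Finset.card_powerset]; exact Nat.pow_le_pow_right (by norm_num) (hD a)
        _ = _ := by simp
    exact_mod_cast this
  set good : Finset (Finset (Finset B)) := (UU.powerset.erase ∅).filter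
    (fun C => (C.card : ℝ) * (σ ^ D / 2) ≤ Pr (bw σ) (up C)) with hgood
  set E1 : Finset (Finset B) → (Y × B → Bool) → Prop := fun C R =>
    ∑ y, ind (up C (fun b => R (y, b))) < m * Pr (bw ρ) (up C) / 4 with hE1
  set E2 : Finset (Finset B) → (A × B → Bool) → Prop := fun C s =>
    m * Pr (bw ρ) (up C) / 4 ≤ ∑ a, ind (cl σ C (cut (N a) (fun b => s (a, b)))) with hE2
  have hpt : ∀ (s : A × B → Bool) (R : Y × B → Bool),
      ind (¬ ∃ φ : A → Y, Function.Injective φ ∧
          ∀ a, ∀ b ∈ N a, s (a, b) = true → R (φ a, b) = true) ≤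
        ∑ C ∈ good, (ind (E1 C R) + ind (E2 C s)) := by
    intro s R
    refine le_trans (ind_mono (Q := ∃ C ∈ good, E1 C R ∨ E2 C s) fun hn => ?_)
      ((ind_exists_le _ _).trans (Finset.sum_le_sum fun C _ => ind_or_le _ _))
    by_contra hc
    push Not at hc
    refine hn (exists_matching N D hD hσ0 hσ1 s R (fun C => m * Pr (bw ρ) (up C) / 4) ?_)
    intro C hC1 hC2 hC3
    have := hc C (Finset.mem_filter.2 ⟨Finset.mem_erase.2
      ⟨hC2.ne_empty, Finset.mem_powerset.2 hC1⟩, hC3⟩)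
    exact ⟨not_lt.1 this.1, not_le.1 this.2⟩
  have htail : ∀ C ∈ good, Pr (bw ρ) (E1 C) + Pr (bw (1 / 2)) (E2 C) ≤ 2 * z ^ C.card := by
    intro C hC
    have h1 := lower_tail (Y := Y) hρ (up C)
    have h2 := upper_tail (A := A) hhalf (fun a t => cl σ C (cut (N a) t))
      (x := m * Pr (bw ρ) (up C)) (by
        have := sum_Pr_cl_le N hσ0 hσ1 hA' hspread C
        linarith)
    have h3 : Pr (bw σ) (up C) ≤ Pr (bw ρ) (up C) := Pr_bw_mono hσ0.le hσρ hρ1 (upClosed_up C)
    have h4 := (Finset.mem_filter.1 hC).2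
    have h5 : Real.exp (-(m * Pr (bw ρ) (up C) / 4)) ≤ z ^ C.card := by
      rw [hz, ← Real.exp_nat_mul]
      refine Real.exp_le_exp.2 ?_
      have := mul_le_mul_of_nonneg_left (h4.trans h3) hm0
      nlinarith
    have h6 : Pr (bw ρ) (E1 C) ≤ z ^ C.card := h1.trans h5
    have h7 : Pr (bw (1 / 2)) (E2 C) ≤ z ^ C.card := h2.trans h5
    linarith
  calc _ ≤ Ex (bw (1 / 2)) (fun s : A × B → Bool => Ex (bw ρ) (fun R : Y × B → Bool =>
          ∑ C ∈ good, (ind (E1 C R) + ind (E2 C s)))) :=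
        Ex_mono hhalf.nonneg fun s => Ex_mono hρ.nonneg fun R => hpt s R
    _ = ∑ C ∈ good, (Pr (bw ρ) (E1 C) + Pr (bw (1 / 2)) (E2 C)) := by
        simp only [Ex_sum, Ex_add, Ex_const (sum_bw ρ), Ex_const (sum_bw (1 / 2))]
        rfl
    _ ≤ ∑ C ∈ good, 2 * z ^ C.card := Finset.sum_le_sum htail
    _ ≤ ∑ C ∈ UU.powerset.erase ∅, 2 * z ^ C.card :=
        Finset.sum_le_sum_of_subset_of_nonneg (Finset.filter_subset _ _)
          fun C _ _ => by positivity
    _ ≤ _ := by
        rw [← Finset.mul_sum]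
        have := sum_pow_card_le UU (Real.exp_pos _).le hUUcard hε
        linarith

end Crest.Agent.R52
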