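import Crest.Agent.R52.Fourier

/-!
Fourier domination, the container step and an exponential-moment bound for the one-layer
matching lemma of result 52.
-/

set_option autoImplicit false
set_option linter.unusedSectionVars false

open Finset

namespace Crest.Agent.R52.Layer

open Crest.Agent.R52

section general

variable {ι Γ : Type} [Fintype ι] [DecidableEq ι] [Fintype Γ]

/-- Coordinatewise push-forward with a product density. -/
lemma Ex_tilt [DecidableEq Γ] (w : Γ → ℝ) (φ : ι → Γ → Γ) (c : ι → ℝ) (g : ι → Γ → ℝ)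
    (h : ∀ i γ', c i * ∑ γ, w γ * (if φ i γ = γ' then 1 else 0) = w γ' * g i γ')
    (F : (ι → Γ) → ℝ) :
    (∏ i, c i) * Ex w (fun ω => F (fun i => φ i (ω i))) =
      Ex w (fun ω => (∏ i, g i (ω i)) * F ω) := by
  have h1 : ∀ ω : ι → Γ, F (fun i => φ i (ω i)) =
      ∑ η : ι → Γ, F η * ∏ i, (if φ i (ω i) = η i then (1 : ℝ) else 0) := by
    intro ω
    rw [Finset.sum_eq_single (fun i => φ i (ω i))]
    · simp
    · intro η _ hη
      obtain ⟨i, hi⟩ := Function.ne_iff.1 hη
      rw [Finset.prod_eq_zero (Finset.mem_univ i) (by simp [Ne.symm hi]), mul_zero]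
    · simp
  simp only [h1]
  rw [Ex_sum, Finset.mul_sum]
  conv_rhs => unfold Ex
  refine Finset.sum_congr rfl fun η _ => ?_
  rw [Ex_const_mul, Ex_prod w (fun i γ => if φ i γ = η i then (1 : ℝ) else 0)]
  have h2 : (∏ i, c i) * ∏ i, ∑ γ, w γ * (if φ i γ = η i then (1 : ℝ) else 0) =
      pw w η * ∏ i, g i (η i) := by
    unfold pw
    rw [← Finset.prod_mul_distrib, ← Finset.prod_mul_distrib]
    exact Finset.prod_congr rfl fun i _ => h i (η i)
  calc (∏ i, c i) * (F η * ∏ i, ∑ γ, w γ * (if φ i γ = η i then (1 : ℝ) else 0))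
      = F η * ((∏ i, c i) * ∏ i, ∑ γ, w γ * (if φ i γ = η i then (1 : ℝ) else 0)) := by ring
    _ = _ := by rw [h2]; ring

/-- Exponential moment of a sum of independent indicators. -/
lemma Ex_exp_sum_ind {w : Γ → ℝ} (hw : IsProb w) (E : ι → Γ → Prop) (l : ℝ) :
    Ex w (fun ω : ι → Γ => Real.exp (l * ∑ i, ind (E i (ω i)))) ≤
      Real.exp ((Real.exp l - 1) * ∑ i, ∑ γ, w γ * ind (E i γ)) := by
  have h1 : ∀ ω : ι → Γ, Real.exp (l * ∑ i, ind (E i (ω i))) =
      ∏ i, (1 + (Real.exp l - 1) * ind (E i (ω i))) := by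
    intro ω
    rw [Finset.mul_sum, Real.exp_sum]
    refine Finset.prod_congr rfl fun i _ => ?_
    by_cases h : E i (ω i)
    · rw [ind_true h]; simp
    · rw [ind_false h]; simp
  simp only [h1]
  rw [Ex_prod w (fun i γ => 1 + (Real.exp l - 1) * ind (E i γ)), Finset.mul_sum, Real.exp_sum]
  refine Finset.prod_le_prod (fun i _ => ?_) (fun i _ => ?_)
  · refine Finset.sum_nonneg fun γ _ => mul_nonneg (hw.nonneg γ) ?_
    by_cases h : E i γ
    · rw [ind_true h]; have := Real.exp_pos l; linarith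
    · rw [ind_false h]; simp
  · have : ∑ γ, w γ * (1 + (Real.exp l - 1) * ind (E i γ)) =
        (Real.exp l - 1) * ∑ γ, w γ * ind (E i γ) + 1 := by
      simp only [mul_add, mul_one, Finset.sum_add_distrib, hw.sum_one, Finset.mul_sum]
      rw [add_comm]
      congr 1
      exact Finset.sum_congr rfl fun _ _ => by ring
    rw [this]
    exact Real.add_one_le_exp _

end general

variable {A B : Type} [Fintype A] [DecidableEq A] [Fintype B] [DecidableEq B]

/-- The part of a sample lying in a given set. -/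
def cut (S : Finset B) (t : B → Bool) : B → Bool := fun b => decide (b ∈ S) && t b

/-- Up-closed predicates. -/
def UpClosed (U : (B → Bool) → Prop) : Prop :=
  ∀ R R' : B → Bool, (∀ b, R b = true → R' b = true) → U R → U R'

lemma Ex_ind_subset (σ : ℝ) (S : Finset B) (F : (B → Bool) → ℝ) :
    Ex (bw σ) (fun R => ind (∀ b ∈ S, R b = true) * F R) =
      σ ^ S.card * Ex (bw σ) (fun R => F (fun b => decide (b ∈ S) || R b)) := by
  have h := Ex_tilt (ι := B) (bw σ) (fun b γ => decide (b ∈ S) || γ)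
    (fun b => if b ∈ S then σ else 1) (fun b γ => if b ∈ S then ind (γ = true) else 1) (by
      intro b γ'
      by_cases hb : b ∈ S <;> cases γ' <;> simp [hb, bw, ind]) F
  simp only [Finset.prod_ite_mem, Finset.univ_inter, Finset.prod_const] at h
  rw [h]
  simp only [ind_forall]

/-- One vertex: the probability that the thinned neighbourhood lies in `U`, against the
Fourier mass of `U` inside the neighbourhood. -/
lemma dom_one {σ : ℝ} (hσ0 : 0 < σ) (S : Finset B) {U : (B → Bool) → Prop} (hU : UpClosed U) :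
    Pr (bw (1 / 2)) (fun t => U (cut S t)) * (1 - Pr (bw σ) U) ^ 2 ≤
      ∑ T ∈ S.powerset.erase ∅, (Ex (bw σ) (fun R => ind (U R) * chi (xi σ) T R)) ^ 2 := by
  set α : Finset B → ℝ := fun T => Ex (bw σ) (fun R => ind (U R) * chi (xi σ) T R) with hα
  have hkey : ∀ t : B → Bool, U (cut S t) →
      1 - Pr (bw σ) U = ∑ T ∈ S.powerset.erase ∅, α T * chi sg T t := by
    intro t ht
    have h1 : ∀ R : B → Bool, ∏ b ∈ S, (1 + sg (t b) * xi σ (R b)) =
        ind (U R) * ∏ b ∈ S, (1 + sg (t b) * xi σ (R b)) := by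
      intro R
      by_cases hR : U R
      · rw [ind_true hR, one_mul]
      · rw [ind_false hR, zero_mul]
        have : ∃ b, cut S t b = true ∧ R b = false := by
          by_contra hc
          push Not at hc
          exact hR (hU _ _ (fun b hb => by simpa using hc b hb) ht)
        obtain ⟨b, hb1, hb2⟩ := this
        simp only [cut, Bool.and_eq_true, decide_eq_true_eq] at hb1
        refine Finset.prod_eq_zero hb1.1 ?_
        rw [hb1.2, hb2, xi_false hσ0.ne']
        simp [sg]
    have h2 : Ex (bw σ) (fun R : B → Bool => ∏ b ∈ S, (1 + sg (t b) * xi σ (R b))) = 1 := by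
      rw [Ex_prod_subset (sum_bw σ) S (fun b γ => 1 + sg (t b) * xi σ γ)]
      refine Finset.prod_eq_one fun b _ => ?_
      have h3 := sum_bw_xi σ
      have h4 := sum_bw σ
      simp only [Fintype.sum_bool] at h3 h4 ⊢
      linear_combination h4 + sg (t b) * h3
    have h3 : Ex (bw σ) (fun R : B → Bool =>
        ind (U R) * ∏ b ∈ S, (1 + sg (t b) * xi σ (R b))) =
        ∑ T ∈ S.powerset, α T * chi sg T t := by
      have h4 : ∀ R : B → Bool, ind (U R) * ∏ b ∈ S, (1 + sg (t b) * xi σ (R b)) =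
          ∑ T ∈ S.powerset, (ind (U R) * chi (xi σ) T R) * chi sg T t := by
        intro R
        rw [prod_one_add_eq_sum S (fun b => sg (t b)) (fun b => xi σ (R b)), Finset.mul_sum]
        refine Finset.sum_congr rfl fun T _ => ?_
        unfold chi; ring
      simp only [h4]
      rw [Ex_sum]
      exact Finset.sum_congr rfl fun T _ => Ex_mul_const _ _ _
    have h5 : Ex (bw σ) (fun R : B → Bool => ∏ b ∈ S, (1 + sg (t b) * xi σ (R b))) =
        Ex (bw σ) (fun R : B → Bool => ind (U R) * ∏ b ∈ S, (1 + sg (t b) * xi σ (R b))) := by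
      congr 1; funext R; exact h1 R
    rw [h2, h3, ← Finset.add_sum_erase _ _ (Finset.empty_mem_powerset S)] at h5
    have h6 : α ∅ * chi sg (∅ : Finset B) t = Pr (bw σ) U := by simp [hα, Pr]
    rw [h6] at h5
    linarith
  have hhalf : IsProb (bw (1 / 2)) := isProb_bw (by norm_num) (by norm_num)
  have h7 := Ex_sq_sum_chi (ι := B) (sum_bw (1 / 2)) sum_half_sg sum_half_sg_sq
    (S.powerset.erase ∅) α
  simp only [one_pow, mul_one] at h7
  rw [← h7, Pr, ← Ex_mul_const]
  refine Ex_mono hhalf.nonneg fun t => ?_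
  by_cases ht : U (cut S t)
  · rw [ind_true ht, one_mul, hkey t ht]
  · rw [ind_false ht, zero_mul]; exact sq_nonneg _

/-- Fourier domination. -/
lemma domination (N : A → Finset B) {σ m : ℝ} (hσ0 : 0 < σ) (hσ1 : σ ≤ 1)
    (hA : 128 * (Fintype.card A : ℝ) ≤ m)
    (hspread : ∀ S : Finset B, S.Nonempty →
      ((Finset.univ.filter (fun a => S ⊆ N a)).card : ℝ) ≤ m * (σ / 256) ^ S.card)
    {U : (B → Bool) → Prop} (hU : UpClosed U) :
    ∑ a, Pr (bw (1 / 2)) (fun t => U (cut (N a) t)) ≤ m / 64 * Pr (bw σ) U := by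
  have hhalf : IsProb (bw (1 / 2)) := isProb_bw (by norm_num) (by norm_num)
  have hσ : IsProb (bw σ) := isProb_bw hσ0.le hσ1
  have hm : 0 ≤ m := le_trans (by positivity) hA
  set μ := Pr (bw σ) U with hμ
  have hμ0 : 0 ≤ μ := Pr_nonneg hσ.nonneg U
  by_cases hbig : 1 / 2 ≤ μ
  · calc ∑ a, Pr (bw (1 / 2)) (fun t => U (cut (N a) t)) ≤ ∑ _a : A, (1 : ℝ) :=
          Finset.sum_le_sum fun a _ => Pr_le_one hhalf _
      _ = Fintype.card A := by simp
      _ ≤ m / 64 * μ := by nlinarith
  push Not at hbig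
  set α : Finset B → ℝ := fun T => Ex (bw σ) (fun R => ind (U R) * chi (xi σ) T R) with hα
  have h1 : ∑ a, Pr (bw (1 / 2)) (fun t => U (cut (N a) t)) * (1 / 4) ≤
      ∑ a, ∑ T ∈ (N a).powerset.erase ∅, α T ^ 2 := by
    refine Finset.sum_le_sum fun a _ => le_trans ?_ (dom_one hσ0 (N a) hU)
    refine mul_le_mul_of_nonneg_left ?_ (Pr_nonneg hhalf.nonneg _)
    rw [← hμ]; nlinarith
  have h2 : ∑ a, ∑ T ∈ (N a).powerset.erase ∅, α T ^ 2 =
      ∑ T ∈ (Finset.univ : Finset (Finset B)).erase ∅,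
        ((Finset.univ.filter (fun a => T ⊆ N a)).card : ℝ) * α T ^ 2 := by
    have : ∀ a, ∑ T ∈ (N a).powerset.erase ∅, α T ^ 2 =
        ∑ T ∈ (Finset.univ : Finset (Finset B)).erase ∅, if T ⊆ N a then α T ^ 2 else 0 := by
      intro a
      rw [← Finset.sum_filter]
      refine Finset.sum_congr ?_ fun _ _ => rfl
      ext T; simp
    simp only [this]
    rw [Finset.sum_comm]
    refine Finset.sum_congr rfl fun T _ => ?_
    rw [← Finset.sum_filter, Finset.sum_const, nsmul_eq_mul]
  have h3 : ∑ T ∈ (Finset.univ : Finset (Finset B)).erase ∅,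
        ((Finset.univ.filter (fun a => T ⊆ N a)).card : ℝ) * α T ^ 2 ≤
      m / 256 * ∑ T ∈ (Finset.univ : Finset (Finset B)).erase ∅, σ ^ T.card * α T ^ 2 := by
    rw [Finset.mul_sum]
    refine Finset.sum_le_sum fun T hT => ?_
    have hT' : T.Nonempty := Finset.nonempty_iff_ne_empty.2 (Finset.ne_of_mem_erase hT)
    rw [← mul_assoc]
    refine mul_le_mul_of_nonneg_right ((hspread T hT').trans ?_) (sq_nonneg _)
    have h4 : (σ / 256) ^ T.card ≤ σ ^ T.card / 256 := by
      rw [div_pow]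
      refine div_le_div_of_nonneg_left (by positivity) (by norm_num) ?_
      exact le_self_pow₀ (by norm_num) hT'.card_pos.ne'
    calc m * (σ / 256) ^ T.card ≤ m * (σ ^ T.card / 256) := mul_le_mul_of_nonneg_left h4 hm
      _ = _ := by ring
  have h5 := bessel (ι := B) hσ (sum_bw_xi σ) (sum_bw_xi_sq hσ0.ne') hσ0.le
    (by rw [mul_div_cancel₀ _ hσ0.ne']; linarith) ((Finset.univ : Finset (Finset B)).erase ∅)
    (fun R => ind (U R))
  have h6 : Ex (bw σ) (fun R : B → Bool => ind (U R) ^ 2) = μ := by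
    simp only [sq, ind_mul_self]; rfl
  rw [h6] at h5
  rw [← Finset.sum_mul] at h1
  have h7 : m / 256 * ∑ T ∈ (Finset.univ : Finset (Finset B)).erase ∅, σ ^ T.card * α T ^ 2 ≤
      m / 256 * μ := mul_le_mul_of_nonneg_left h5 (by positivity)
  linarith

/-- The up-set generated by a family of sets. -/
def up (C : Finset (Finset B)) (R : B → Bool) : Prop := ∃ S ∈ C, ∀ b ∈ S, R b = true

lemma upClosed_up (C : Finset (Finset B)) : UpClosed (up C) := by
  rintro R R' h ⟨S, hS, hR⟩
  exact ⟨S, hS, fun b hb => h b (hR b hb)⟩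

/-- The closure of a family: samples whose union with a fresh sample is likely to lie in the
generated up-set. -/
def cl (σ : ℝ) (C : Finset (Finset B)) (t : B → Bool) : Prop :=
  1 / 2 ≤ Pr (bw σ) (fun R => up C (fun b => t b || R b))

/-- Containers. -/
lemma exists_container {σ : ℝ} (hσ0 : 0 < σ) (hσ1 : σ ≤ 1) (D : ℕ) (G : Finset (Finset B))
    (hG : G.Nonempty) (hD : ∀ S ∈ G, S.card ≤ D) :
    ∃ C ⊆ G, C.Nonempty ∧ (C.card : ℝ) * (σ ^ D / 2) ≤ Pr (bw σ) (up C) ∧
      ∀ S ∈ G, cl σ C (fun b => decide (b ∈ S)) := by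
  classical
  have hσ : IsProb (bw σ) := isProb_bw hσ0.le hσ1
  obtain ⟨C, hC, hmax⟩ := Finset.exists_max_image
    (G.powerset.filter (fun C => (C.card : ℝ) * (σ ^ D / 2) ≤ Pr (bw σ) (up C))) Finset.card
    ⟨∅, by simp [Pr_nonneg hσ.nonneg]⟩
  simp only [Finset.mem_filter, Finset.mem_powerset] at hC hmax
  have hcl : ∀ S ∈ G, cl σ C (fun b => decide (b ∈ S)) := by
    intro S hS
    by_contra hn
    unfold cl at hn
    push Not at hn
    have hSC : S ∉ C := by
      intro hSC
      rw [Pr_true (sum_bw σ) (fun R => ⟨S, hSC, fun b hb => by simp [hb]⟩)] at hn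
      norm_num at hn
    have h1 : Pr (bw σ) (up (insert S C)) = Pr (bw σ) (up C) +
        Ex (bw σ) (fun R => ind (∀ b ∈ S, R b = true) * ind (¬ up C R)) := by
      unfold Pr
      rw [← Ex_add]
      congr 1
      funext R
      have : up (insert S C) R ↔ (∀ b ∈ S, R b = true) ∨ up C R := by simp [up]
      rw [ind_congr this]
      by_cases h2 : up C R <;> by_cases h3 : ∀ b ∈ S, R b = true
      · rw [ind_true (Or.inr h2), ind_true h2, ind_false (not_not.2 h2)]; ring
      · rw [ind_true (Or.inr h2), ind_true h2, ind_false (not_not.2 h2)]; ring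
      · rw [ind_true (Or.inl h3), ind_false h2, ind_true h3, ind_true h2]; ring
      · rw [ind_false (not_or.2 ⟨h3, h2⟩), ind_false h2, ind_false h3]; ring
    rw [Ex_ind_subset σ S (fun R => ind (¬ up C R))] at h1
    have h2 := Pr_not (sum_bw σ) (fun R : B → Bool => up C (fun b => decide (b ∈ S) || R b))
    unfold Pr at h2 hn
    rw [h2] at h1
    have h3 : σ ^ D ≤ σ ^ S.card := pow_le_pow_of_le_one hσ0.le hσ1 (hD S hS)
    have h4 : 0 ≤ σ ^ D := by positivity
    have h5 := hmax (insert S C) ⟨Finset.insert_subset hS hC.1, by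
      rw [Finset.card_insert_of_notMem hSC, h1]
      push_cast
      nlinarith [hC.2]⟩
    rw [Finset.card_insert_of_notMem hSC] at h5
    omega
  refine ⟨C, hC.1, ?_, hC.2, hcl⟩
  obtain ⟨S, hS⟩ := hG
  have h := hcl S hS
  rw [Finset.nonempty_iff_ne_empty]
  rintro rfl
  unfold cl at h
  rw [Pr_false _ (fun R => by simp [up])] at h
  norm_num at h

/-- The expected number of thinned neighbourhoods in the closure of `C`. -/
lemma sum_Pr_cl_le (N : A → Finset B) {σ m : ℝ} (hσ0 : 0 < σ) (hσ1 : σ ≤ 1)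
    (hA : 128 * (Fintype.card A : ℝ) ≤ m)
    (hspread : ∀ S : Finset B, S.Nonempty →
      ((Finset.univ.filter (fun a => S ⊆ N a)).card : ℝ) ≤ m * (σ / 256) ^ S.card)
    (C : Finset (Finset B)) :
    ∑ a, Pr (bw (1 / 2)) (fun t => cl σ C (cut (N a) t)) ≤
      m / 32 * Pr (bw (1 - (1 - σ) ^ 2)) (up C) := by
  have hhalf : IsProb (bw (1 / 2)) := isProb_bw (by norm_num) (by norm_num)
  have hσ : IsProb (bw σ) := isProb_bw hσ0.le hσ1
  have h1 : ∀ a, Pr (bw (1 / 2)) (fun t => cl σ C (cut (N a) t)) ≤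
      2 * Ex (bw σ) (fun R : B → Bool =>
        Pr (bw (1 / 2)) (fun t => up C (fun b => cut (N a) t b || R b))) := by
    intro a
    unfold Pr
    rw [← Ex_swap, ← Ex_const_mul]
    refine Pr_le_of_le hhalf.nonneg (fun t => ?_) (fun t ht => ?_)
    · exact mul_nonneg (by norm_num) (Pr_nonneg hσ.nonneg _)
    · unfold cl Pr at ht
      linarith
  have h2 : ∑ a, Ex (bw σ) (fun R : B → Bool =>
        Pr (bw (1 / 2)) (fun t => up C (fun b => cut (N a) t b || R b))) ≤
      Ex (bw σ) (fun R : B → Bool =>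
        m / 64 * Pr (bw σ) (fun R' : B → Bool => up C (fun b => R' b || R b))) := by
    rw [← Ex_sum]
    refine Ex_mono hσ.nonneg fun R => ?_
    refine domination N hσ0 hσ1 hA hspread (U := fun R' => up C (fun b => R' b || R b)) ?_
    intro R₁ R₂ h hR
    refine upClosed_up C _ _ (fun b hb => ?_) hR
    simp only [Bool.or_eq_true] at hb ⊢
    exact hb.imp_left (h b)
  rw [Ex_const_mul] at h2
  have h3 : Ex (bw σ) (fun R : B → Bool =>
      Pr (bw σ) (fun R' : B → Bool => up C (fun b => R' b || R b))) =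
      Pr (bw (1 - (1 - σ) ^ 2)) (up C) := by
    unfold Pr
    rw [Ex_swap, Ex_union σ σ (fun R => ind (up C R)), sq]
  rw [h3] at h2
  calc _ ≤ ∑ a, 2 * Ex (bw σ) (fun R : B → Bool =>
        Pr (bw (1 / 2)) (fun t => up C (fun b => cut (N a) t b || R b))) :=
        Finset.sum_le_sum fun a _ => h1 a
    _ ≤ _ := by rw [← Finset.mul_sum]; linarith

end Crest.Agent.R52.Layer
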