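import Crest.Agent.R52.Layer
import Crest.Agent.R52.Defs

/-!
Layer-by-layer embedding: the theorem `multilayer` from the one-layer lemma `layer`.
-/

set_option autoImplicit false

open Finset

namespace Crest.Agent.R52

open Crest.CombinatoricsR.RandomGraph

namespace Multilayer

variable {n : ℕ}

/-- The vertices of layer `j`. -/
def lay (V : Finset (Fin n)) (ℓ : Fin n → ℕ) (j : ℕ) : Finset (Fin n) :=
  V.filter (fun a => ℓ a = j)

/-- The vertices of the layers below `j`. -/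
def low (V : Finset (Fin n)) (ℓ : Fin n → ℕ) (j : ℕ) : Finset (Fin n) :=
  V.filter (fun a => ℓ a < j)

/-- The size of the target block of layer `j`. -/
def msz (V : Finset (Fin n)) (ℓ : Fin n → ℕ) (m j : ℕ) : ℕ := 128 * (lay V ℓ j).card + m

/-- The offset of the target block of layer `j`. -/
def off (V : Finset (Fin n)) (ℓ : Fin n → ℕ) (m j : ℕ) : ℕ := ∑ i ∈ range j, msz V ℓ m i

lemma off_succ (V : Finset (Fin n)) (ℓ : Fin n → ℕ) (m j : ℕ) :
    off V ℓ m (j + 1) = off V ℓ m j + msz V ℓ m j := by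
  unfold off; rw [Finset.sum_range_succ]

lemma off_mono (V : Finset (Fin n)) (ℓ : Fin n → ℕ) (m : ℕ) {i j : ℕ} (h : i ≤ j) :
    off V ℓ m i ≤ off V ℓ m j :=
  Finset.sum_le_sum_of_subset (Finset.range_mono h)

lemma off_top (V : Finset (Fin n)) (ℓ : Fin n → ℕ) (m χ : ℕ) (hχ : ∀ a ∈ V, ℓ a < χ) :
    off V ℓ m χ = 128 * V.card + χ * m := by
  unfold off msz
  rw [Finset.sum_add_distrib, ← Finset.mul_sum, Finset.sum_const, Finset.card_range, smul_eq_mul]
  congr 2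
  rw [Finset.card_eq_sum_card_fiberwise (f := ℓ) (t := range χ)
    (fun a ha => Finset.mem_range.2 (hχ a ha))]
  rfl

/-- The layers below `j` are embedded below the offset of layer `j`. -/
def Good (N : Fin n → Finset (Fin n)) (V : Finset (Fin n)) (ℓ : Fin n → ℕ) (m j : ℕ)
    (s : Fin n × Fin n → Bool) (ω : EdgeSlot n → Bool) : Prop :=
  ∃ φ : Fin n → Fin n, (∀ a ∈ low V ℓ j, ∀ b ∈ low V ℓ j, φ a = φ b → a = b) ∧
    (∀ a ∈ low V ℓ j, (φ a).val < off V ℓ m j) ∧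
    ∀ a ∈ low V ℓ j, ∀ b ∈ N a, s (a, b) = true → (graphOf ω).Adj (φ a) (φ b)

lemma good_zero (N : Fin n → Finset (Fin n)) (V : Finset (Fin n)) (ℓ : Fin n → ℕ) (m : ℕ)
    (s : Fin n × Fin n → Bool) (ω : EdgeSlot n → Bool) : Good N V ℓ m 0 s ω := by
  refine ⟨id, ?_, ?_, ?_⟩ <;> intro a ha <;> simp [low] at ha

lemma contains_of_good (N : Fin n → Finset (Fin n)) (V : Finset (Fin n))
    (hV : ∀ a, ∀ b ∈ N a, a ∈ V ∧ b ∈ V) (ℓ : Fin n → ℕ) (m χ : ℕ) (hχ : ∀ a ∈ V, ℓ a < χ)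
    (s : Fin n × Fin n → Bool) (ω : EdgeSlot n → Bool) (h : Good N V ℓ m χ s ω) :
    Contains ω (thin N s) := by
  obtain ⟨φ, h1, -, h3⟩ := h
  have hlow : ∀ a ∈ V, a ∈ low V ℓ χ := fun a ha => Finset.mem_filter.2 ⟨ha, hχ a ha⟩
  obtain ⟨π, hπ⟩ := Equiv.Perm.exists_extending_pair (f := fun a : V => (a : Fin n))
    (g := fun a : V => φ a) Subtype.val_injective
    (fun a b hab => Subtype.ext (h1 _ (hlow _ a.2) _ (hlow _ b.2) hab))
  refine ⟨π, fun a b hb => ?_⟩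
  obtain ⟨hb1, hb2⟩ := Finset.mem_filter.1 hb
  obtain ⟨ha, hbV⟩ := hV a b hb1
  have e1 : π a = φ a := hπ ⟨a, ha⟩
  have e2 : π b = φ b := hπ ⟨b, hbV⟩
  rw [e1, e2]
  exact h3 a (hlow a ha) b hb1 hb2

/-- The vertex in position `y` of a block starting at `o`. -/
def upV {o k : ℕ} (h : o + k ≤ n) (y : Fin k) : Fin n := ⟨o + y, by have := y.2; omega⟩

/-- A vertex below `o`. -/
def loV {o k : ℕ} (h : o + k ≤ n) (v : Fin o) : Fin n := ⟨v, by have := v.2; omega⟩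

lemma upV_ne_loV {o k : ℕ} (h : o + k ≤ n) (y : Fin k) (v : Fin o) : upV h y ≠ loV h v := by
  intro e
  have := congrArg Fin.val e
  have hv := v.2
  simp only [upV, loV] at this
  omega

/-- The slots between a block and the vertices below it. -/
def fSlot {o k : ℕ} (h : o + k ≤ n) (x : Fin k × Fin o) : EdgeSlot n :=
  slot (upV h x.1) (loV h x.2) (upV_ne_loV h x.1 x.2)

lemma fSlot_injective {o k : ℕ} (h : o + k ≤ n) : Function.Injective (fSlot h) := by
  rintro ⟨y, v⟩ ⟨y', v'⟩ e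
  have e' : s(upV h y, loV h v) = s(upV h y', loV h v') := congrArg Subtype.val e
  rw [Sym2.eq_iff] at e'
  rcases e' with ⟨e1, e2⟩ | ⟨e1, _⟩
  · have a1 := congrArg Fin.val e1
    have a2 := congrArg Fin.val e2
    simp only [upV, loV] at a1 a2
    refine Prod.ext (Fin.ext ?_) (Fin.ext ?_)
    · simp only; omega
    · simpa using a2
  · exact absurd e1 (upV_ne_loV h y v')

lemma slot_not_mem_range {o k : ℕ} (h : o + k ≤ n) (a b : Fin n) (hab : a ≠ b) (ha : a.val < o)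
    (hb : b.val < o) : ¬ ∃ x, fSlot h x = slot a b hab := by
  rintro ⟨⟨y, v⟩, e⟩
  have e' : s(upV h y, loV h v) = s(a, b) := congrArg Subtype.val e
  rw [Sym2.eq_iff] at e'
  rcases e' with ⟨e1, _⟩ | ⟨e1, _⟩
  · have a1 := congrArg Fin.val e1
    simp only [upV] at a1
    omega
  · have a1 := congrArg Fin.val e1
    simp only [upV] at a1
    omega

/-- The sign positions of a layer. -/
def fSign (A : Finset (Fin n)) (x : A × Fin n) : Fin n × Fin n := (x.1.val, x.2)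

lemma fSign_injective (A : Finset (Fin n)) : Function.Injective (fSign A) := by
  rintro ⟨a, b⟩ ⟨a', b'⟩ e
  simp only [fSign, Prod.mk.injEq] at e
  exact Prod.ext (Subtype.ext e.1) e.2

/-- Extending an embedding by a matching of the next layer. -/
lemma good_succ (N : Fin n → Finset (Fin n)) (V : Finset (Fin n))
    (hV : ∀ a, ∀ b ∈ N a, a ∈ V ∧ b ∈ V) (ℓ : Fin n → ℕ) (hℓ : ∀ a, ∀ b ∈ N a, ℓ b < ℓ a)
    (m j : ℕ) (hj : off V ℓ m j + msz V ℓ m j ≤ n)
    (s : Fin n × Fin n → Bool) (ω : EdgeSlot n → Bool) (φ : Fin n → Fin n)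
    (h1 : ∀ a ∈ low V ℓ j, ∀ b ∈ low V ℓ j, φ a = φ b → a = b)
    (h2 : ∀ a ∈ low V ℓ j, (φ a).val < off V ℓ m j)
    (h3 : ∀ a ∈ low V ℓ j, ∀ b ∈ N a, s (a, b) = true → (graphOf ω).Adj (φ a) (φ b))
    (η : lay V ℓ j × Fin n → Bool) (ζ : Fin (msz V ℓ m j) × Fin (off V ℓ m j) → Bool)
    (ψ : lay V ℓ j → Fin (msz V ℓ m j)) (hψ : Function.Injective ψ)
    (hm : ∀ a : lay V ℓ j, ∀ b : low V ℓ j, b.val ∈ N a.val → η (a, b.val) = true →
      ζ (ψ a, ⟨(φ b.val).val, h2 b.val b.2⟩) = true) :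
    Good N V ℓ m (j + 1) (Function.extend (fSign (lay V ℓ j)) η s)
      (Function.extend (fSlot hj) ζ ω) := by
  classical
  let φ' : Fin n → Fin n := fun v => if h : v ∈ lay V ℓ j then upV hj (ψ ⟨v, h⟩) else φ v
  have hφ1 : ∀ v (h : v ∈ lay V ℓ j), φ' v = upV hj (ψ ⟨v, h⟩) := fun v h => dif_pos h
  have hφ2 : ∀ v, v ∉ lay V ℓ j → φ' v = φ v := fun v h => dif_neg h
  have hsplit : ∀ a ∈ low V ℓ (j + 1), a ∉ lay V ℓ j → a ∈ low V ℓ j := by
    intro a ha hna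
    simp only [low, lay, Finset.mem_filter, not_and] at ha hna ⊢
    refine ⟨ha.1, ?_⟩
    have := hna ha.1
    omega
  have hup : ∀ y : Fin (msz V ℓ m j), off V ℓ m j ≤ (upV hj y).val := fun y => by
    simp [upV]
  refine ⟨φ', ?_, ?_, ?_⟩
  · intro a ha b hb e
    by_cases ha' : a ∈ lay V ℓ j <;> by_cases hb' : b ∈ lay V ℓ j
    · rw [hφ1 a ha', hφ1 b hb'] at e
      have e1 := congrArg Fin.val e
      simp only [upV] at e1
      have e2 : ψ ⟨a, ha'⟩ = ψ ⟨b, hb'⟩ := Fin.ext (by omega)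
      exact congrArg Subtype.val (hψ e2)
    · rw [hφ1 a ha', hφ2 b hb'] at e
      have := h2 b (hsplit b hb hb')
      have := hup (ψ ⟨a, ha'⟩)
      rw [e] at this
      omega
    · rw [hφ2 a ha', hφ1 b hb'] at e
      have := h2 a (hsplit a ha ha')
      have := hup (ψ ⟨b, hb'⟩)
      rw [← e] at this
      omega
    · rw [hφ2 a ha', hφ2 b hb'] at e
      exact h1 a (hsplit a ha ha') b (hsplit b hb hb') e
  · intro a ha
    rw [off_succ]
    by_cases ha' : a ∈ lay V ℓ j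
    · rw [hφ1 a ha']
      have := (ψ ⟨a, ha'⟩).2
      simp only [upV]
      omega
    · rw [hφ2 a ha']
      have := h2 a (hsplit a ha ha')
      omega
  · intro a ha b hb hs
    have hbV := (hV a b hb).2
    have hlt := hℓ a b hb
    have haj : ℓ a < j + 1 := (Finset.mem_filter.1 ha).2
    have hblow : b ∈ low V ℓ j := Finset.mem_filter.2 ⟨hbV, by omega⟩
    have hbn : b ∉ lay V ℓ j := by
      intro h
      have := (Finset.mem_filter.1 h).2
      omega
    rw [hφ2 b hbn]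
    by_cases ha' : a ∈ lay V ℓ j
    · rw [hφ1 a ha']
      have e1 : (a, b) = fSign (lay V ℓ j) (⟨a, ha'⟩, b) := rfl
      rw [e1, (fSign_injective _).extend_apply] at hs
      have hz := hm ⟨a, ha'⟩ ⟨b, hblow⟩ hb hs
      rw [graphOf_adj]
      refine ⟨upV_ne_loV hj (ψ ⟨a, ha'⟩) ⟨(φ b).val, h2 b hblow⟩, ?_⟩
      have e2 : slot (upV hj (ψ ⟨a, ha'⟩)) (φ b) (upV_ne_loV hj (ψ ⟨a, ha'⟩) ⟨(φ b).val, h2 b hblow⟩)
          = fSlot hj (ψ ⟨a, ha'⟩, ⟨(φ b).val, h2 b hblow⟩) := rfl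
      rw [e2, (fSlot_injective hj).extend_apply]
      exact hz
    · rw [hφ2 a ha']
      have halow := hsplit a ha ha'
      rw [Function.extend_apply' _ _ _ (by
        rintro ⟨⟨a', b'⟩, e⟩
        simp only [fSign, Prod.mk.injEq] at e
        exact ha' (e.1 ▸ a'.2))] at hs
      have hadj := h3 a halow b hb hs
      rw [graphOf_adj] at hadj ⊢
      obtain ⟨hne, hω⟩ := hadj
      refine ⟨hne, ?_⟩
      rw [Function.extend_apply' _ _ _ (slot_not_mem_range hj _ _ hne (h2 a halow) (h2 b hblow))]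
      exact hω

/-- The one-layer lemma, applied to layer `j`. -/
lemma layer_bound (N : Fin n → Finset (Fin n)) (V : Finset (Fin n)) (ℓ : Fin n → ℕ)
    (D : ℕ) (hD : ∀ a, (N a).card ≤ D) (m j : ℕ) (σ : ℝ) (hσ0 : 0 < σ) (hσ1 : σ ≤ 1)
    (hspread : ∀ S : Finset (Fin n), S.Nonempty →
      ((Finset.univ.filter (fun a => S ⊆ N a)).card : ℝ) ≤ m * (σ / 256) ^ S.card)
    (hε : (n : ℝ) * 2 ^ D * Real.exp (-(m * σ ^ D / 8)) ≤ 1) :
    Ex (bw (1 / 2)) (fun s : lay V ℓ j × low V ℓ j → Bool =>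
      Pr (bw (1 - (1 - σ) ^ 2)) (fun R : Fin (msz V ℓ m j) × low V ℓ j → Bool =>
        ¬ ∃ ψ : lay V ℓ j → Fin (msz V ℓ m j), Function.Injective ψ ∧
          ∀ a : lay V ℓ j, ∀ b : low V ℓ j, b.val ∈ N a.val → s (a, b) = true →
            R (ψ a, b) = true)) ≤
      4 * ((n : ℝ) * 2 ^ D * Real.exp (-(m * σ ^ D / 8))) := by
  classical
  have hmm : (m : ℝ) ≤ msz V ℓ m j := by
    have : m ≤ msz V ℓ m j := by unfold msz; omega
    exact_mod_cast this
  have hcardA : (Fintype.card (lay V ℓ j) : ℝ) ≤ n := by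
    have : Fintype.card (lay V ℓ j) ≤ n := by
      rw [Fintype.card_coe]
      simpa using Finset.card_le_univ (lay V ℓ j)
    exact_mod_cast this
  have hle : (Fintype.card (lay V ℓ j) : ℝ) * 2 ^ D *
      Real.exp (-(Fintype.card (Fin (msz V ℓ m j)) * σ ^ D / 8)) ≤
      (n : ℝ) * 2 ^ D * Real.exp (-(m * σ ^ D / 8)) := by
    rw [Fintype.card_fin]
    have hp : 0 ≤ σ ^ D := pow_nonneg hσ0.le D
    have : Real.exp (-((msz V ℓ m j : ℝ) * σ ^ D / 8)) ≤ Real.exp (-(m * σ ^ D / 8)) := by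
      apply Real.exp_le_exp.2
      have := mul_le_mul_of_nonneg_right hmm hp
      linarith
    gcongr
  have key := layer (A := lay V ℓ j) (B := low V ℓ j) (Y := Fin (msz V ℓ m j))
    (fun a => Finset.univ.filter (fun b : low V ℓ j => b.val ∈ N a.val)) D
    (by
      intro a
      refine le_trans ?_ (hD a.val)
      refine Finset.card_le_card_of_injOn (fun b => b.val) ?_ ?_
      · intro b hb
        simpa using hb
      · intro b _ b' _ e
        exact Subtype.ext e)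
    σ hσ0 hσ1
    (by rw [Fintype.card_fin, Fintype.card_coe]; unfold msz; omega)
    (by
      intro S hS
      have h1 := hspread (S.map (Function.Embedding.subtype _)) (by simpa using hS)
      rw [Finset.card_map] at h1
      have h2 : (Finset.univ.filter (fun a : lay V ℓ j =>
          S ⊆ Finset.univ.filter (fun b : low V ℓ j => b.val ∈ N a.val))).card ≤
          (Finset.univ.filter (fun a => S.map (Function.Embedding.subtype _) ⊆ N a)).card := by
        refine Finset.card_le_card_of_injOn (fun a => a.val) ?_ ?_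
        · intro a ha
          simp only [Finset.coe_filter, Finset.mem_univ, true_and, Set.mem_ofPred_eq] at ha ⊢
          intro x hx
          obtain ⟨b, hb, rfl⟩ := Finset.mem_map.1 hx
          simpa using ha hb
        · intro a _ a' _ e
          exact Subtype.ext e
      rw [Fintype.card_fin]
      have h3 : (0 : ℝ) ≤ (σ / 256) ^ S.card := by positivity
      calc _ ≤ ((Finset.univ.filter
            (fun a => S.map (Function.Embedding.subtype _) ⊆ N a)).card : ℝ) := by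
            exact_mod_cast h2
        _ ≤ m * (σ / 256) ^ S.card := h1
        _ ≤ _ := mul_le_mul_of_nonneg_right hmm h3)
    (hle.trans hε)
  simp only [Finset.mem_filter, Finset.mem_univ, true_and] at key
  linarith

/-- One step of the induction, for a fixed outcome. -/
lemma step_fixed (N : Fin n → Finset (Fin n)) (V : Finset (Fin n))
    (hV : ∀ a, ∀ b ∈ N a, a ∈ V ∧ b ∈ V) (ℓ : Fin n → ℕ) (hℓ : ∀ a, ∀ b ∈ N a, ℓ b < ℓ a)
    (D : ℕ) (hD : ∀ a, (N a).card ≤ D) (m j : ℕ) (hj : off V ℓ m j + msz V ℓ m j ≤ n)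
    (σ : ℝ) (hσ0 : 0 < σ) (hσ1 : σ ≤ 1)
    (hspread : ∀ S : Finset (Fin n), S.Nonempty →
      ((Finset.univ.filter (fun a => S ⊆ N a)).card : ℝ) ≤ m * (σ / 256) ^ S.card)
    (hε : (n : ℝ) * 2 ^ D * Real.exp (-(m * σ ^ D / 8)) ≤ 1)
    (s : Fin n × Fin n → Bool) (ω : EdgeSlot n → Bool) :
    Ex (bw (1 / 2)) (fun η : lay V ℓ j × Fin n → Bool =>
      Ex (bw (1 - (1 - σ) ^ 2)) (fun ζ : Fin (msz V ℓ m j) × Fin (off V ℓ m j) → Bool =>
        ind (¬ Good N V ℓ m (j + 1) (Function.extend (fSign (lay V ℓ j)) η s)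
          (Function.extend (fSlot hj) ζ ω)))) ≤
      ind (¬ Good N V ℓ m j s ω) + 4 * ((n : ℝ) * 2 ^ D * Real.exp (-(m * σ ^ D / 8))) := by
  classical
  have hw1 : IsProb (bw (1 / 2)) := isProb_bw (by norm_num) (by norm_num)
  have hw2 : IsProb (bw (1 - (1 - σ) ^ 2)) := isProb_bw (by nlinarith) (by nlinarith)
  have hε0 : (0 : ℝ) ≤ 4 * ((n : ℝ) * 2 ^ D * Real.exp (-(m * σ ^ D / 8))) := by positivity
  by_cases hg : Good N V ℓ m j s ω
  · rw [ind_false (not_not.2 hg), zero_add]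
    obtain ⟨φ, h1, h2, h3⟩ := hg
    refine le_trans ?_ (layer_bound N V ℓ D hD m j σ hσ0 hσ1 hspread hε)
    let g1 : lay V ℓ j × low V ℓ j → lay V ℓ j × Fin n := fun x => (x.1, x.2.val)
    have hg1 : Function.Injective g1 := by
      rintro ⟨a, b⟩ ⟨a', b'⟩ e
      simp only [g1, Prod.mk.injEq] at e
      exact Prod.ext e.1 (Subtype.ext e.2)
    let g2 : Fin (msz V ℓ m j) × low V ℓ j → Fin (msz V ℓ m j) × Fin (off V ℓ m j) :=
      fun x => (x.1, ⟨(φ x.2.val).val, h2 x.2.val x.2.2⟩)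
    have hg2 : Function.Injective g2 := by
      rintro ⟨y, b⟩ ⟨y', b'⟩ e
      simp only [g2, Prod.mk.injEq, Fin.mk.injEq] at e
      exact Prod.ext e.1 (Subtype.ext (h1 _ b.2 _ b'.2 (Fin.ext e.2)))
    rw [← Ex_comp_inj hw1.sum_one hg1]
    refine Ex_mono hw1.nonneg fun η => ?_
    unfold Pr
    rw [← Ex_comp_inj hw2.sum_one hg2]
    refine Ex_mono hw2.nonneg fun ζ => ind_mono ?_
    intro hng hex
    obtain ⟨ψ, hψ, hm⟩ := hex
    exact hng (good_succ N V hV ℓ hℓ m j hj s ω φ h1 h2 h3 η ζ ψ hψ hm)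
  · rw [ind_true hg]
    have : Ex (bw (1 / 2)) (fun η : lay V ℓ j × Fin n → Bool =>
      Ex (bw (1 - (1 - σ) ^ 2)) (fun ζ : Fin (msz V ℓ m j) × Fin (off V ℓ m j) → Bool =>
        ind (¬ Good N V ℓ m (j + 1) (Function.extend (fSign (lay V ℓ j)) η s)
          (Function.extend (fSlot hj) ζ ω)))) ≤ 1 :=
      Ex_le_const hw1 fun η => Ex_le_const hw2 fun ζ => ind_le_one _
    linarith

/-- One step of the induction. -/
lemma step (N : Fin n → Finset (Fin n)) (V : Finset (Fin n))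
    (hV : ∀ a, ∀ b ∈ N a, a ∈ V ∧ b ∈ V) (ℓ : Fin n → ℕ) (hℓ : ∀ a, ∀ b ∈ N a, ℓ b < ℓ a)
    (D : ℕ) (hD : ∀ a, (N a).card ≤ D) (m j : ℕ) (hj : off V ℓ m j + msz V ℓ m j ≤ n)
    (σ : ℝ) (hσ0 : 0 < σ) (hσ1 : σ ≤ 1)
    (hspread : ∀ S : Finset (Fin n), S.Nonempty →
      ((Finset.univ.filter (fun a => S ⊆ N a)).card : ℝ) ≤ m * (σ / 256) ^ S.card)
    (hε : (n : ℝ) * 2 ^ D * Real.exp (-(m * σ ^ D / 8)) ≤ 1) :
    Ex (bw (1 / 2)) (fun s : Fin n × Fin n → Bool =>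
      Ex (bw (1 - (1 - σ) ^ 2)) (fun ω : EdgeSlot n → Bool =>
        ind (¬ Good N V ℓ m (j + 1) s ω))) ≤
    Ex (bw (1 / 2)) (fun s : Fin n × Fin n → Bool =>
      Ex (bw (1 - (1 - σ) ^ 2)) (fun ω : EdgeSlot n → Bool => ind (¬ Good N V ℓ m j s ω))) +
      4 * ((n : ℝ) * 2 ^ D * Real.exp (-(m * σ ^ D / 8))) := by
  classical
  have hw1 : IsProb (bw (1 / 2)) := isProb_bw (by norm_num) (by norm_num)
  have hw2 : IsProb (bw (1 - (1 - σ) ^ 2)) := isProb_bw (by nlinarith) (by nlinarith)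
  rw [Ex_resample hw1.sum_one (fSign_injective (lay V ℓ j)),
    ← Ex_const (ι := Fin n × Fin n) hw1.sum_one
      (4 * ((n : ℝ) * 2 ^ D * Real.exp (-(m * σ ^ D / 8)))), ← Ex_add]
  refine Ex_mono hw1.nonneg fun s => ?_
  simp only [fun η : lay V ℓ j × Fin n → Bool => Ex_resample hw2.sum_one (fSlot_injective hj)
    (fun ω : EdgeSlot n → Bool =>
      ind (¬ Good N V ℓ m (j + 1) (Function.extend (fSign (lay V ℓ j)) η s) ω))]
  rw [Ex_swap, ← Ex_const (ι := EdgeSlot n) hw2.sum_one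
      (4 * ((n : ℝ) * 2 ^ D * Real.exp (-(m * σ ^ D / 8)))), ← Ex_add]
  refine Ex_mono hw2.nonneg fun ω => ?_
  exact step_fixed N V hV ℓ hℓ D hD m j hj σ hσ0 hσ1 hspread hε s ω

end Multilayer

open Multilayer in
/-- Layer-by-layer embedding. -/
theorem multilayer {n : ℕ} (N : Fin n → Finset (Fin n)) (V : Finset (Fin n))
    (hV : ∀ a, ∀ b ∈ N a, a ∈ V ∧ b ∈ V) (ℓ : Fin n → ℕ) (χ : ℕ) (hχ : ∀ a ∈ V, ℓ a < χ)
    (hℓ : ∀ a, ∀ b ∈ N a, ℓ b < ℓ a) (D : ℕ) (hD : ∀ a, (N a).card ≤ D) (m : ℕ)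
    (hm : 128 * V.card + χ * m ≤ n) (σ : ℝ) (hσ0 : 0 < σ) (hσ1 : σ ≤ 1)
    (hspread : ∀ S : Finset (Fin n), S.Nonempty →
      ((Finset.univ.filter (fun a => S ⊆ N a)).card : ℝ) ≤ m * (σ / 256) ^ S.card)
    (hε : (n : ℝ) * 2 ^ D * Real.exp (-(m * σ ^ D / 8)) ≤ 1) :
    failAvg (1 - (1 - σ) ^ 2) N ≤ χ * (4 * ((n : ℝ) * 2 ^ D * Real.exp (-(m * σ ^ D / 8)))) := by
  classical
  have hw1 : IsProb (bw (1 / 2)) := isProb_bw (by norm_num) (by norm_num)
  have hw2 : IsProb (bw (1 - (1 - σ) ^ 2)) := isProb_bw (by nlinarith) (by nlinarith)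
  have main : ∀ j, j ≤ χ → Ex (bw (1 / 2)) (fun s : Fin n × Fin n → Bool =>
      Ex (bw (1 - (1 - σ) ^ 2)) (fun ω : EdgeSlot n → Bool => ind (¬ Good N V ℓ m j s ω))) ≤
      j * (4 * ((n : ℝ) * 2 ^ D * Real.exp (-(m * σ ^ D / 8)))) := by
    intro j
    induction j with
    | zero =>
      intro _
      rw [Nat.cast_zero, zero_mul]
      exact Ex_le_const hw1 fun s => Ex_le_const hw2 fun ω =>
        (ind_false (not_not.2 (good_zero N V ℓ m s ω))).le
    | succ j ih =>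
      intro hj
      have h1 : off V ℓ m j + msz V ℓ m j ≤ n := by
        rw [← off_succ]
        refine (off_mono V ℓ m hj).trans ?_
        rw [off_top V ℓ m χ hχ]
        exact hm
      have h2 := step N V hV ℓ hℓ D hD m j h1 σ hσ0 hσ1 hspread hε
      have h3 := ih (by omega)
      push_cast
      linarith
  refine le_trans ?_ (main χ le_rfl)
  unfold failAvg Pr
  refine Ex_mono hw1.nonneg fun s => Ex_mono hw2.nonneg fun ω => ind_mono ?_
  intro h hg
  exact h (contains_of_good N V hV ℓ m χ hχ s ω hg)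

end Crest.Agent.R52
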