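import Mathlib

/-!
A small toolkit for i.i.d. finite product distributions, written as explicit finite sums.
-/

set_option autoImplicit false
set_option linter.unusedSectionVars false

open Finset

namespace Crest.Agent.R52

/-- Product weight of an outcome. -/
noncomputable def pw {ι Γ : Type} [Fintype ι] (w : Γ → ℝ) (ω : ι → Γ) : ℝ := ∏ i, w (ω i)

/-- Expectation under the i.i.d. product of the weight `w`. -/
noncomputable def Ex {ι Γ : Type} [Fintype ι] [DecidableEq ι] [Fintype Γ] (w : Γ → ℝ)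
    (F : (ι → Γ) → ℝ) : ℝ := ∑ ω, pw w ω * F ω

open Classical in
/-- Real indicator of a proposition. -/
noncomputable def ind (P : Prop) : ℝ := if P then 1 else 0

/-- Probability under the i.i.d. product of the weight `w`. -/
noncomputable def Pr {ι Γ : Type} [Fintype ι] [DecidableEq ι] [Fintype Γ] (w : Γ → ℝ)
    (E : (ι → Γ) → Prop) : ℝ := Ex w (fun ω => ind (E ω))

/-- Bernoulli weight. -/
noncomputable def bw (p : ℝ) (b : Bool) : ℝ := if b then p else 1 - p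

/-- `w` is a probability vector. -/
structure IsProb {Γ : Type} [Fintype Γ] (w : Γ → ℝ) : Prop where
  nonneg : ∀ γ, 0 ≤ w γ
  sum_one : ∑ γ, w γ = 1

lemma ind_true {P : Prop} (h : P) : ind P = 1 := by simp [ind, h]
lemma ind_false {P : Prop} (h : ¬ P) : ind P = 0 := by simp [ind, h]
lemma ind_nonneg (P : Prop) : 0 ≤ ind P := by unfold ind; split_ifs <;> norm_num
lemma ind_le_one (P : Prop) : ind P ≤ 1 := by unfold ind; split_ifs <;> norm_num
lemma ind_mono {P Q : Prop} (h : P → Q) : ind P ≤ ind Q := by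
  by_cases hp : P
  · rw [ind_true hp, ind_true (h hp)]
  · rw [ind_false hp]; exact ind_nonneg Q
lemma ind_congr {P Q : Prop} (h : P ↔ Q) : ind P = ind Q := by rw [propext h]
lemma ind_not (P : Prop) : ind (¬ P) = 1 - ind P := by
  by_cases hp : P <;> simp [ind, hp]
lemma ind_and (P Q : Prop) : ind (P ∧ Q) = ind P * ind Q := by
  by_cases hp : P <;> by_cases hq : Q <;> simp [ind, hp, hq]
lemma ind_or_le (P Q : Prop) : ind (P ∨ Q) ≤ ind P + ind Q := by
  by_cases hp : P <;> by_cases hq : Q <;> simp [ind, hp, hq]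
lemma ind_mul_self (P : Prop) : ind P * ind P = ind P := by
  by_cases hp : P <;> simp [ind, hp]
lemma ind_eq_ite (P : Prop) [Decidable P] : ind P = if P then 1 else 0 := by
  by_cases hp : P <;> simp [ind, hp]
lemma ind_forall {κ : Type} (s : Finset κ) (P : κ → Prop) :
    ind (∀ k ∈ s, P k) = ∏ k ∈ s, ind (P k) := by
  by_cases h : ∀ k ∈ s, P k
  · rw [ind_true h, Finset.prod_eq_one (fun k hk => ind_true (h k hk))]
  · rw [ind_false h]
    push Not at h
    obtain ⟨k, hk, hp⟩ := h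
    exact (Finset.prod_eq_zero hk (ind_false hp)).symm
lemma ind_exists_le {κ : Type} (s : Finset κ) (P : κ → Prop) :
    ind (∃ k ∈ s, P k) ≤ ∑ k ∈ s, ind (P k) := by
  by_cases h : ∃ k ∈ s, P k
  · obtain ⟨k, hk, hp⟩ := h
    calc ind _ ≤ 1 := ind_le_one _
      _ = ind (P k) := (ind_true hp).symm
      _ ≤ _ := Finset.single_le_sum (f := fun k => ind (P k)) (fun k _ => ind_nonneg _) hk
  · rw [ind_false h]; exact Finset.sum_nonneg fun k _ => ind_nonneg _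
lemma sum_ind_eq_card {κ : Type} (s : Finset κ) (P : κ → Prop) [DecidablePred P] :
    ∑ k ∈ s, ind (P k) = ((s.filter P).card : ℝ) := by
  rw [Finset.card_filter]; push_cast
  exact Finset.sum_congr rfl fun k _ => ind_eq_ite _

lemma isProb_bw {p : ℝ} (h0 : 0 ≤ p) (h1 : p ≤ 1) : IsProb (bw p) :=
  ⟨fun b => by cases b <;> simp [bw] <;> linarith, by simp [bw]⟩

lemma sum_bw (p : ℝ) : ∑ b, bw p b = 1 := by simp [bw]

section basic

variable {ι Γ : Type} [Fintype ι] [DecidableEq ι] [Fintype Γ] {w : Γ → ℝ}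

lemma pw_nonneg (hw : ∀ γ, 0 ≤ w γ) (ω : ι → Γ) : 0 ≤ pw w ω :=
  Finset.prod_nonneg fun _ _ => hw _

lemma Ex_prod (w : Γ → ℝ) (f : ι → Γ → ℝ) :
    Ex w (fun ω => ∏ i, f i (ω i)) = ∏ i, ∑ γ, w γ * f i γ := by
  unfold Ex pw
  rw [Finset.prod_univ_sum]
  simp only [Fintype.piFinset_univ]
  exact Finset.sum_congr rfl fun ω _ => by rw [Finset.prod_mul_distrib]

lemma sum_pw (hw : ∑ γ, w γ = 1) : ∑ ω : ι → Γ, pw w ω = 1 := by
  have := Ex_prod (ι := ι) w (fun _ _ => 1)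
  simpa [Ex, hw] using this

lemma isProb_pw (hw : IsProb w) : IsProb (pw w : (ι → Γ) → ℝ) :=
  ⟨pw_nonneg hw.nonneg, sum_pw hw.sum_one⟩

lemma Ex_const (hw : ∑ γ, w γ = 1) (c : ℝ) : Ex w (fun _ : ι → Γ => c) = c := by
  unfold Ex; rw [← Finset.sum_mul, sum_pw hw, one_mul]

lemma Ex_prod_subset (hw : ∑ γ, w γ = 1) (S : Finset ι) (f : ι → Γ → ℝ) :
    Ex w (fun ω => ∏ i ∈ S, f i (ω i)) = ∏ i ∈ S, ∑ γ, w γ * f i γ := by
  have h := Ex_prod w (fun i γ => if i ∈ S then f i γ else 1)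
  simp only [Finset.prod_ite_mem, Finset.univ_inter] at h
  rw [h]
  rw [← Finset.prod_subset (Finset.subset_univ S)]
  · exact Finset.prod_congr rfl fun i hi => by simp [hi]
  · intro i _ hi; simp [hi, hw]

lemma Ex_add (w : Γ → ℝ) (F G : (ι → Γ) → ℝ) :
    Ex w (fun ω => F ω + G ω) = Ex w F + Ex w G := by
  simp [Ex, mul_add, Finset.sum_add_distrib]

lemma Ex_sub (w : Γ → ℝ) (F G : (ι → Γ) → ℝ) :
    Ex w (fun ω => F ω - G ω) = Ex w F - Ex w G := by
  simp [Ex, mul_sub, Finset.sum_sub_distrib]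

lemma Ex_const_mul (w : Γ → ℝ) (c : ℝ) (F : (ι → Γ) → ℝ) :
    Ex w (fun ω => c * F ω) = c * Ex w F := by
  simp only [Ex, Finset.mul_sum]
  exact Finset.sum_congr rfl fun ω _ => by ring

lemma Ex_mul_const (w : Γ → ℝ) (c : ℝ) (F : (ι → Γ) → ℝ) :
    Ex w (fun ω => F ω * c) = Ex w F * c := by
  simp only [Ex, Finset.sum_mul]
  exact Finset.sum_congr rfl fun ω _ => by ring

lemma Ex_sum {κ : Type} (w : Γ → ℝ) (s : Finset κ) (F : κ → (ι → Γ) → ℝ) :
    Ex w (fun ω => ∑ k ∈ s, F k ω) = ∑ k ∈ s, Ex w (F k) := by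
  simp only [Ex, Finset.mul_sum]
  exact Finset.sum_comm

lemma Ex_mono (hw : ∀ γ, 0 ≤ w γ) {F G : (ι → Γ) → ℝ} (h : ∀ ω, F ω ≤ G ω) : Ex w F ≤ Ex w G :=
  Finset.sum_le_sum fun ω _ => mul_le_mul_of_nonneg_left (h ω) (pw_nonneg hw ω)

lemma Ex_nonneg (hw : ∀ γ, 0 ≤ w γ) {F : (ι → Γ) → ℝ} (h : ∀ ω, 0 ≤ F ω) : 0 ≤ Ex w F :=
  Finset.sum_nonneg fun ω _ => mul_nonneg (pw_nonneg hw ω) (h ω)

lemma Ex_le_const (hw : IsProb w) {F : (ι → Γ) → ℝ} {c : ℝ} (h : ∀ ω, F ω ≤ c) : Ex w F ≤ c :=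
  (Ex_mono hw.nonneg h).trans (Ex_const hw.sum_one c).le

lemma exists_le_Ex (hw : IsProb w) (F : (ι → Γ) → ℝ) : ∃ ω, F ω ≤ Ex w F := by
  by_contra h
  push Not at h
  have hs := sum_pw (ι := ι) hw.sum_one
  have : ∃ ω : ι → Γ, 0 < pw w ω := by
    by_contra h2
    push Not at h2
    have : ∑ ω : ι → Γ, pw w ω ≤ 0 := Finset.sum_nonpos fun ω _ => h2 ω
    linarith
  obtain ⟨ω₀, h₀⟩ := this
  have : ∑ ω : ι → Γ, pw w ω * Ex w F < ∑ ω, pw w ω * F ω :=
    Finset.sum_lt_sum (fun ω _ => mul_le_mul_of_nonneg_left (h ω).le (pw_nonneg hw.nonneg ω))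
      ⟨ω₀, Finset.mem_univ _, mul_lt_mul_of_pos_left (h ω₀) h₀⟩
  rw [← Finset.sum_mul, hs, one_mul] at this
  exact lt_irrefl _ this

lemma Pr_nonneg (hw : ∀ γ, 0 ≤ w γ) (E : (ι → Γ) → Prop) : 0 ≤ Pr w E :=
  Ex_nonneg hw fun _ => ind_nonneg _

lemma Pr_le_one (hw : IsProb w) (E : (ι → Γ) → Prop) : Pr w E ≤ 1 :=
  Ex_le_const hw fun _ => ind_le_one _

lemma Pr_mono (hw : ∀ γ, 0 ≤ w γ) {E E' : (ι → Γ) → Prop} (h : ∀ ω, E ω → E' ω) :
    Pr w E ≤ Pr w E' := Ex_mono hw fun ω => ind_mono (h ω)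

lemma Pr_congr (w : Γ → ℝ) {E E' : (ι → Γ) → Prop} (h : ∀ ω, E ω ↔ E' ω) :
    Pr w E = Pr w E' := by
  have : E = E' := funext fun ω => propext (h ω)
  rw [this]

lemma Pr_not (hw : ∑ γ, w γ = 1) (E : (ι → Γ) → Prop) : Pr w (fun ω => ¬ E ω) = 1 - Pr w E := by
  unfold Pr
  simp only [ind_not]
  rw [Ex_sub, Ex_const hw]

lemma Pr_or_le (hw : ∀ γ, 0 ≤ w γ) (E E' : (ι → Γ) → Prop) :
    Pr w (fun ω => E ω ∨ E' ω) ≤ Pr w E + Pr w E' := by
  unfold Pr
  rw [← Ex_add]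
  exact Ex_mono hw fun ω => ind_or_le _ _

lemma Pr_exists_le {κ : Type} (hw : ∀ γ, 0 ≤ w γ) (s : Finset κ) (E : κ → (ι → Γ) → Prop) :
    Pr w (fun ω => ∃ k ∈ s, E k ω) ≤ ∑ k ∈ s, Pr w (E k) := by
  unfold Pr
  rw [← Ex_sum]
  exact Ex_mono hw fun ω => ind_exists_le s (fun k => E k ω)

lemma Pr_true (hw : ∑ γ, w γ = 1) {E : (ι → Γ) → Prop} (h : ∀ ω, E ω) : Pr w E = 1 := by
  unfold Pr
  simp only [fun ω => ind_true (h ω)]
  exact Ex_const hw 1

lemma Pr_false (w : Γ → ℝ) {E : (ι → Γ) → Prop} (h : ∀ ω, ¬ E ω) : Pr w E = 0 := by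
  unfold Pr Ex
  simp only [fun ω => ind_false (h ω), mul_zero, Finset.sum_const_zero]

/-- Markov-type bound. -/
lemma Pr_le_of_le (hw : ∀ γ, 0 ≤ w γ) {E : (ι → Γ) → Prop} {F : (ι → Γ) → ℝ}
    (h0 : ∀ ω, 0 ≤ F ω) (h : ∀ ω, E ω → 1 ≤ F ω) : Pr w E ≤ Ex w F :=
  Ex_mono hw fun ω => by
    by_cases he : E ω
    · rw [ind_true he]; exact h ω he
    · rw [ind_false he]; exact h0 ω

end basic

section transforms

variable {ι κ Γ Γ' : Type} [Fintype ι] [DecidableEq ι] [Fintype κ] [DecidableEq κ]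
  [Fintype Γ] [Fintype Γ']

/-- Fubini. -/
lemma Ex_swap (w : Γ → ℝ) (w' : Γ' → ℝ) (F : (ι → Γ) → (κ → Γ') → ℝ) :
    Ex w (fun ω => Ex w' (fun η => F ω η)) = Ex w' (fun η => Ex w (fun ω => F ω η)) := by
  simp only [Ex, Finset.mul_sum]
  rw [Finset.sum_comm]
  exact Finset.sum_congr rfl fun _ _ => Finset.sum_congr rfl fun _ _ => by ring

/-- Coordinatewise push-forward. -/
lemma Ex_map [DecidableEq Γ'] (w : Γ → ℝ) (w' : Γ' → ℝ) (φ : Γ → Γ')
    (h : ∀ γ', ∑ γ, w γ * (if φ γ = γ' then 1 else 0) = w' γ') (F : (ι → Γ') → ℝ) :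
    Ex w (fun ω => F (fun i => φ (ω i))) = Ex w' F := by
  have h1 : ∀ ω : ι → Γ, F (fun i => φ (ω i)) =
      ∑ η : ι → Γ', F η * ∏ i, (if φ (ω i) = η i then (1 : ℝ) else 0) := by
    intro ω
    rw [Finset.sum_eq_single (fun i => φ (ω i))]
    · simp
    · intro η _ hη
      obtain ⟨i, hi⟩ := Function.ne_iff.1 hη
      rw [Finset.prod_eq_zero (Finset.mem_univ i) (by simp [Ne.symm hi]), mul_zero]
    · simp
  simp only [h1]
  rw [Ex_sum]
  unfold Ex
  refine Finset.sum_congr rfl fun η _ => ?_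
  have := Ex_const_mul w (F η) (fun ω : ι → Γ => ∏ i, (if φ (ω i) = η i then (1 : ℝ) else 0))
  unfold Ex at this
  rw [this]
  have h2 := Ex_prod w (fun i γ => if φ γ = η i then (1 : ℝ) else 0)
  unfold Ex at h2
  rw [h2]
  simp only [h, pw]
  ring

/-- Pairs of independent samples. -/
lemma Ex_pair (w : Γ → ℝ) (w' : Γ' → ℝ) (F : (ι → Γ × Γ') → ℝ) :
    Ex (fun γ : Γ × Γ' => w γ.1 * w' γ.2) F =
      Ex w (fun ω => Ex w' (fun ω' => F (fun i => (ω i, ω' i)))) := by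
  unfold Ex
  simp only [Finset.mul_sum]
  rw [← Finset.sum_product', Finset.univ_product_univ]
  refine Fintype.sum_equiv (Equiv.arrowProdEquivProdArrow ι (fun _ => Γ) (fun _ => Γ')) _ _ ?_
  intro ω
  simp only [pw, Equiv.arrowProdEquivProdArrow, Equiv.coe_fn_mk, Finset.prod_mul_distrib]
  ring

/-- Currying: a sample indexed by a product is an i.i.d. family of samples. -/
lemma Ex_curry (w : Γ → ℝ) (F : (ι × κ → Γ) → ℝ) :
    Ex w F = Ex (pw w : (κ → Γ) → ℝ) (fun R : ι → κ → Γ => F (fun x => R x.1 x.2)) := by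
  unfold Ex
  refine Fintype.sum_equiv (Equiv.curry ι κ Γ) _ _ ?_
  intro ω
  simp only [pw, Equiv.curry, Equiv.coe_fn_mk, Function.curry, Fintype.prod_prod_type]

/-- Reindexing by an equivalence. -/
lemma Ex_equiv (w : Γ → ℝ) (e : κ ≃ ι) (F : (κ → Γ) → ℝ) :
    Ex w (fun ω : ι → Γ => F (fun k => ω (e k))) = Ex w F := by
  unfold Ex
  refine Fintype.sum_equiv (Equiv.arrowCongr e.symm (Equiv.refl Γ)) _ _ ?_
  intro ω
  have : pw w ω = pw w (fun k => ω (e k)) := by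
    unfold pw; exact (Equiv.prod_comp e (fun i => w (ω i))).symm
  rw [this]
  rfl

lemma pw_extend_mul (w : Γ → ℝ) {f : κ → ι} (hf : Function.Injective f) (ω : ι → Γ)
    (η : κ → Γ) :
    pw w (Function.extend f η ω) * pw w (fun k => ω (f k)) = pw w ω * pw w η := by
  unfold pw
  rw [← Finset.prod_mul_prod_compl (Finset.univ.image f) (fun i => w (Function.extend f η ω i)),
    ← Finset.prod_mul_prod_compl (Finset.univ.image f) (fun i => w (ω i)),
    Finset.prod_image (fun a _ b _ h => hf h), Finset.prod_image (fun a _ b _ h => hf h)]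
  have h1 : ∏ k, w (Function.extend f η ω (f k)) = ∏ k, w (η k) :=
    Finset.prod_congr rfl fun k _ => by rw [hf.extend_apply]
  have h2 : ∏ i ∈ (Finset.univ.image f)ᶜ, w (Function.extend f η ω i) =
      ∏ i ∈ (Finset.univ.image f)ᶜ, w (ω i) := by
    refine Finset.prod_congr rfl fun i hi => ?_
    rw [Function.extend_apply' _ _ _ (by simpa using hi)]
  rw [h1, h2]; ring

/-- Resampling the coordinates in the range of an injective map. -/
lemma Ex_resample {w : Γ → ℝ} (hw : ∑ γ, w γ = 1) {f : κ → ι} (hf : Function.Injective f)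
    (F : (ι → Γ) → ℝ) :
    Ex w F = Ex w (fun ω => Ex w (fun η : κ → Γ => F (Function.extend f η ω))) := by
  let Φ : (ι → Γ) × (κ → Γ) → (ι → Γ) × (κ → Γ) :=
    fun x => (Function.extend f x.2 x.1, fun k => x.1 (f k))
  have hΦ : Function.Involutive Φ := by
    rintro ⟨ω, η⟩
    refine Prod.ext ?_ ?_
    · funext i
      by_cases hi : ∃ k, f k = i
      · obtain ⟨k, rfl⟩ := hi
        simp only [Φ, hf.extend_apply]
      · simp only [Φ]
        rw [Function.extend_apply' _ _ _ hi, Function.extend_apply' _ _ _ hi]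
    · funext k
      simp only [Φ, hf.extend_apply]
  have h1 : Ex w F = ∑ x : (ι → Γ) × (κ → Γ), pw w x.1 * pw w x.2 * F x.1 := by
    rw [Fintype.sum_prod_type]
    unfold Ex
    refine Finset.sum_congr rfl fun ω _ => ?_
    simp only
    rw [← Finset.sum_mul, ← Finset.mul_sum, sum_pw hw, mul_one]
  rw [h1, ← Equiv.sum_comp hΦ.toPerm, Fintype.sum_prod_type]
  unfold Ex
  refine Finset.sum_congr rfl fun ω _ => ?_
  rw [Finset.mul_sum]
  refine Finset.sum_congr rfl fun η _ => ?_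
  simp only [Function.Involutive.coe_toPerm, Φ]
  rw [pw_extend_mul w hf]; ring

/-- Restriction along an injective map. -/
lemma Ex_comp_inj {w : Γ → ℝ} (hw : ∑ γ, w γ = 1) {f : κ → ι} (hf : Function.Injective f)
    (F : (κ → Γ) → ℝ) : Ex w (fun ω : ι → Γ => F (fun k => ω (f k))) = Ex w F := by
  rw [Ex_resample hw hf]
  simp only [hf.extend_apply]
  exact Ex_const hw _

/-- The union of two independent Bernoulli samples. -/
lemma Ex_union (a b : ℝ) (F : (ι → Bool) → ℝ) :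
    Ex (bw a) (fun ω => Ex (bw b) (fun ω' => F (fun i => ω i || ω' i))) =
      Ex (bw (1 - (1 - a) * (1 - b))) F := by
  rw [← Ex_map (fun γ : Bool × Bool => bw a γ.1 * bw b γ.2) (bw (1 - (1 - a) * (1 - b)))
    (fun γ => γ.1 || γ.2), Ex_pair]
  intro γ'
  cases γ' <;> simp [Fintype.sum_prod_type, bw] <;> ring

/-- Monotonicity in the density for increasing functions. -/
lemma Ex_bw_mono {a b : ℝ} (ha : 0 ≤ a) (hab : a ≤ b) (hb : b ≤ 1) {F : (ι → Bool) → ℝ}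
    (hF : ∀ ω ω' : ι → Bool, (∀ i, ω i = true → ω' i = true) → F ω ≤ F ω') :
    Ex (bw a) F ≤ Ex (bw b) F := by
  rcases eq_or_lt_of_le hab with rfl | hlt
  · exact le_rfl
  have h1 : 0 < 1 - a := by linarith
  have hc0 : 0 ≤ (b - a) / (1 - a) := div_nonneg (by linarith) h1.le
  have hc1 : (b - a) / (1 - a) ≤ 1 := by rw [div_le_one h1]; linarith
  have he : b = 1 - (1 - a) * (1 - (b - a) / (1 - a)) := by field_simp; ring
  rw [he, ← Ex_union]
  refine Ex_mono (isProb_bw ha (by linarith)).nonneg fun ω => ?_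
  rw [← Ex_const (ι := ι) (sum_bw ((b - a) / (1 - a))) (F ω)]
  exact Ex_mono (isProb_bw hc0 hc1).nonneg fun ω' => hF _ _ fun i hi => by simp [hi]

lemma Pr_bw_mono {a b : ℝ} (ha : 0 ≤ a) (hab : a ≤ b) (hb : b ≤ 1) {E : (ι → Bool) → Prop}
    (hE : ∀ ω ω' : ι → Bool, (∀ i, ω i = true → ω' i = true) → E ω → E ω') :
    Pr (bw a) E ≤ Pr (bw b) E :=
  Ex_bw_mono ha hab hb fun ω ω' h => ind_mono (hE ω ω' h)

/-- Flipping all fair coins preserves the distribution. -/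
lemma Ex_half_not (F : (ι → Bool) → ℝ) :
    Ex (bw (1 / 2)) (fun ω => F (fun i => ! ω i)) = Ex (bw (1 / 2)) F := by
  refine Ex_map (bw (1 / 2)) (bw (1 / 2)) (fun b => ! b) ?_ F
  intro γ'
  cases γ' <;> simp [bw] <;> norm_num

end transforms

end Crest.Agent.R52
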