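import Crest.Agent.R52.Selector

/-!
Rounding fractional covers to integral covers with a constant-factor loss.
-/

set_option autoImplicit false
set_option linter.unusedSectionVars false

open Finset

namespace Crest.Agent.R52

variable {α : Type} [Fintype α] [DecidableEq α]

lemma abel_nonpos (u l : ℕ → ℝ) (m : ℕ) (hl0 : ∀ i, 0 ≤ l i) (hl : ∀ i, l (i + 1) ≤ l i)
    (hu : ∀ j, j ≤ m → ∑ i ∈ Finset.range j, u i ≤ 0) :
    ∑ i ∈ Finset.range m, u i * l i ≤ 0 := by
  have key : ∀ j, j ≤ m →
      ∑ i ∈ Finset.range j, u i * l i ≤ (∑ i ∈ Finset.range j, u i) * l j := by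
    intro j
    induction j with
    | zero => intro _; simp
    | succ j ih =>
      intro hj
      have h1 := ih (by omega)
      have h2 := hu (j + 1) hj
      have h3 := hl j
      rw [Finset.sum_range_succ]
      rw [Finset.sum_range_succ] at h2 ⊢
      nlinarith
  exact (key m le_rfl).trans (mul_nonpos_of_nonpos_of_nonneg (hu m le_rfl) (hl0 m))

lemma exists_rank (A : Finset α) (lam : α → ℝ) (hlam : ∀ x, 0 ≤ lam x) :
    ∃ rk : α → ℕ, Set.InjOn rk A ∧ ∀ (P : α → Prop) [DecidablePred P] (c : ℕ),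
      (∀ j, c * (A.filter (fun x => rk x < j ∧ P x)).card ≤ j) →
        (c : ℝ) * ∑ x ∈ A.filter P, lam x ≤ ∑ x ∈ A, lam x := by
  let e : Fin A.card ≃ A := A.equivFin.symm
  let σ := Tuple.sort (fun i => -lam (e i))
  let a : Fin A.card ≃ A := σ.trans e
  have hmono : Monotone (fun i => -lam (a i)) := Tuple.monotone_sort (fun i => -lam (e i))
  let rk : α → ℕ := fun x => if h : x ∈ A then (a.symm ⟨x, h⟩ : ℕ) else 0
  have hrk : ∀ i, rk (a i) = i := by
    intro i
    simp [rk, (a i).2]
  refine ⟨rk, ?_, ?_⟩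
  · intro x hx y hy h
    have hx' : x ∈ A := hx
    have hy' : y ∈ A := hy
    simp only [rk, dif_pos hx', dif_pos hy'] at h
    have := a.symm.injective (Fin.ext h)
    exact congrArg Subtype.val this
  · intro P _ c hc
    have hsumA : ∀ f : α → ℝ, ∑ x ∈ A, f x = ∑ i : Fin A.card, f (a i) := by
      intro f
      rw [← Finset.sum_coe_sort A f]
      exact (Equiv.sum_comp a (fun x : A => f x)).symm
    let u : ℕ → ℝ := fun i => if h : i < A.card then (c : ℝ) * ind (P (a ⟨i, h⟩)) - 1 else 0
    let l : ℕ → ℝ := fun i => if h : i < A.card then lam (a ⟨i, h⟩) else 0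
    have h1 := abel_nonpos u l A.card
      (fun i => by simp only [l]; split_ifs; exacts [hlam _, le_rfl])
      (fun i => by
        simp only [l]
        split_ifs with h1 h2 h2
        · have := hmono (show (⟨i, h2⟩ : Fin A.card) ≤ ⟨i + 1, h1⟩ from by simp [Fin.le_def])
          simpa using this
        · omega
        · exact hlam _
        · exact le_rfl)
      (fun j hj => by
        have h2 : ((A.filter (fun x => rk x < j ∧ P x)).card : ℝ) =
            ∑ i ∈ Finset.range j, (if h : i < A.card then ind (P (a ⟨i, h⟩)) else 0) := by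
          rw [← sum_ind_eq_card, hsumA]
          simp only [hrk, ind_and]
          rw [Finset.sum_fin_eq_sum_range]
          rw [← Finset.sum_subset (Finset.range_subset_range.2 hj)]
          · refine Finset.sum_congr rfl fun i hi => ?_
            rw [Finset.mem_range] at hi
            split_ifs with h
            · simp [ind_true hi]
            · rfl
          · intro i _ hi
            rw [Finset.mem_range] at hi
            split_ifs with h
            · simp [ind_false hi]
            · rfl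
        have h3 : ∑ i ∈ Finset.range j, u i =
            c * ((A.filter (fun x => rk x < j ∧ P x)).card : ℝ) - j := by
          rw [h2, Finset.mul_sum]
          have : (j : ℝ) = ∑ i ∈ Finset.range j, (1 : ℝ) := by simp
          rw [this, ← Finset.sum_sub_distrib]
          refine Finset.sum_congr rfl fun i hi => ?_
          rw [Finset.mem_range] at hi
          have hi' : i < A.card := by omega
          simp only [u, dif_pos hi']
        rw [h3]
        have : ((c * (A.filter (fun x => rk x < j ∧ P x)).card : ℕ) : ℝ) ≤ j := by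
          exact_mod_cast hc j
        push_cast at this
        linarith)
    have h4 : ∑ i ∈ Finset.range A.card, u i * l i =
        (c : ℝ) * ∑ x ∈ A.filter P, lam x - ∑ x ∈ A, lam x := by
      rw [Finset.sum_filter, Finset.mul_sum, ← Finset.sum_sub_distrib, hsumA,
        Finset.sum_fin_eq_sum_range]
      refine Finset.sum_congr rfl fun i hi => ?_
      rw [Finset.mem_range] at hi
      simp only [u, l, dif_pos hi, ind_eq_ite]
      split_ifs <;> ring
    linarith

lemma one_sub_le_pow (k t : ℕ) (hk : 0 < k) :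
    1 - (t : ℝ) / k / 2 ≤ 16 ^ k * (1 / 4 : ℝ) ^ t := by
  have hk' : (0 : ℝ) < k := by exact_mod_cast hk
  rcases le_or_gt t (2 * k) with h | h
  · have h1 : (1 / 4 : ℝ) ^ (2 * k) ≤ (1 / 4) ^ t := pow_le_pow_of_le_one (by norm_num) (by norm_num) h
    have h2 : (16 : ℝ) ^ k * (1 / 4) ^ (2 * k) = 1 := by
      rw [pow_mul, ← mul_pow]; norm_num
    have h3 : 0 ≤ (t : ℝ) / k / 2 := by positivity
    calc _ ≤ (1 : ℝ) := by linarith
      _ = _ := h2.symm
      _ ≤ _ := mul_le_mul_of_nonneg_left h1 (by positivity)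
  · have h1 : (2 : ℝ) * k < t := by exact_mod_cast h
    have h2 : 2 ≤ (t : ℝ) / k := by rw [le_div_iff₀ hk']; linarith
    have : (0 : ℝ) ≤ 16 ^ k * (1 / 4 : ℝ) ^ t := by positivity
    linarith

lemma sum_half_pow_le (s : ℕ) : ∑ i : Fin s, (1 / 2 : ℝ) ^ (i : ℕ) ≤ 2 := by
  rw [Fin.sum_univ_eq_sum_range (fun i => (1 / 2 : ℝ) ^ i)]
  exact sum_geometric_two_le s

/-- Fractional covers can be rounded with the loss of a constant factor. -/
theorem round_cover (F : Finset (Finset α)) (r : ℝ) (hr0 : 0 ≤ r) (g : Finset α → ℝ)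
    (hg : ∀ S, 0 ≤ g S) (hcov : ∀ H ∈ F, 1 ≤ ∑ S ∈ H.powerset, g S)
    (hcost : ∑ S : Finset α, g S * r ^ S.card ≤ 1 / 2) (p : ℝ) (hp0 : 0 ≤ p)
    (hpr : 32768 * p ≤ r) :
    ∃ G : Finset (Finset α), (∀ H ∈ F, ∃ S ∈ G, S ⊆ H) ∧ ∑ S ∈ G, p ^ S.card ≤ 1 / 2 := by
  classical
  have hg0 : g ∅ ≤ 1 / 2 := by
    have := Finset.single_le_sum (f := fun S : Finset α => g S * r ^ S.card)
      (fun S _ => mul_nonneg (hg S) (pow_nonneg hr0 _)) (Finset.mem_univ ∅)
    simp at this
    linarith
  rcases eq_or_lt_of_le hp0 with rfl | hp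
  · refine ⟨F, fun H hH => ⟨H, hH, le_rfl⟩, ?_⟩
    rw [Finset.sum_eq_zero]
    · norm_num
    · intro S hS
      have : S.card ≠ 0 := by
        intro h
        rw [Finset.card_eq_zero] at h
        subst h
        have := hcov ∅ hS
        simp at this
        linarith
      exact zero_pow this
  by_contra hcon
  push Not at hcon
  obtain ⟨q, hq⟩ : ∃ q, q = 64 * p := ⟨_, rfl⟩
  have hq0 : 0 < q := by linarith
  have hex : ∃ s : ℕ, 1 < q * 2 ^ (s + 1) := by
    obtain ⟨s, hs⟩ := pow_unbounded_of_one_lt (1 / q) (one_lt_two (α := ℝ))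
    refine ⟨s, ?_⟩
    rw [div_lt_iff₀ hq0] at hs
    have : (0 : ℝ) < 2 ^ s := by positivity
    rw [pow_succ]; nlinarith
  obtain ⟨s, hs1, hs2⟩ : ∃ s : ℕ, 1 < q * 2 ^ (s + 1) ∧ q * (2 ^ s - 1) ≤ 1 := by
    refine ⟨Nat.find hex, Nat.find_spec hex, ?_⟩
    rcases Nat.eq_zero_or_pos (Nat.find hex) with h | h
    · rw [h]; simp
    · have := Nat.find_min hex (m := Nat.find hex - 1) (by omega)
      rw [show Nat.find hex - 1 + 1 = Nat.find hex by omega] at this
      push Not at this
      nlinarith
  let w : Fin (s + 1) → ℝ := fun i => if (i : ℕ) < s then q * 2 ^ (i : ℕ) else 1 - q * (2 ^ s - 1)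
  have hwc : ∀ i : Fin s, w i.castSucc = q * 2 ^ (i : ℕ) := fun i => by simp [w]
  have hwl : w (Fin.last s) = 1 - q * (2 ^ s - 1) := by simp [w]
  have hw : IsProb w := by
    refine ⟨fun i => ?_, ?_⟩
    · simp only [w]; split_ifs
      · positivity
      · linarith
    · rw [Fin.sum_univ_castSucc, hwl]
      simp only [hwc]
      rw [← Finset.mul_sum, Fin.sum_univ_eq_sum_range (fun i => (2 : ℝ) ^ i), geom_sum_eq (by norm_num)]
      ring
  let lam : Finset α → α → ℝ := fun A x => ∑ S ∈ A.powerset, ind (x ∈ S) * (g S / S.card)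
  have hlam : ∀ A x, 0 ≤ lam A x := fun A x => Finset.sum_nonneg fun S _ =>
    mul_nonneg (ind_nonneg _) (div_nonneg (hg S) (Nat.cast_nonneg _))
  choose rk hinj habel using fun A => exists_rank A (lam A) (hlam A)
  have hsel := Sel.selector (rk := rk) (F := F) (fun B _ => hinj B) w hw
    (fun i hi => by simp only [w, if_pos hi]; positivity) p hp0
    (by
      have : ∀ i : Fin s, p / w i.castSucc = (1 / 64) * (1 / 2 : ℝ) ^ (i : ℕ) := by
        intro i
        rw [hwc, hq, one_div_pow]; field_simp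
      simp only [this]
      rw [← Finset.mul_sum]
      have := sum_half_pow_le s
      linarith) hcon
  -- the test statistic
  let Z : (α → Fin (s + 1)) → ℝ := fun τ =>
    ∑ S ∈ Finset.univ.erase (∅ : Finset α), g S * ∏ x ∈ S, (16 * (1 / 4 : ℝ) ^ (τ x : ℕ))
  have hZ0 : ∀ (τ : α → Fin (s + 1)) (S : Finset α),
      0 ≤ g S * ∏ x ∈ S, (16 * (1 / 4 : ℝ) ^ (τ x : ℕ)) := fun τ S =>
    mul_nonneg (hg S) (Finset.prod_nonneg fun _ _ => by positivity)
  have hEZ : Ex w Z ≤ 1 / 16 := by
    have hm : ∑ γ, w γ * (16 * (1 / 4 : ℝ) ^ (γ : ℕ)) ≤ r / 8 := by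
      rw [Fin.sum_univ_castSucc, hwl]
      have e1 : ∀ i : Fin s, w i.castSucc * (16 * (1 / 4 : ℝ) ^ (i.castSucc : ℕ)) =
          16 * q * (1 / 2 : ℝ) ^ (i : ℕ) := by
        intro i
        rw [hwc, Fin.val_castSucc]
        have : (2 : ℝ) ^ (i : ℕ) * (1 / 4) ^ (i : ℕ) = (1 / 2) ^ (i : ℕ) := by
          rw [← mul_pow]; norm_num
        rw [← this]; ring
      simp only [e1]
      rw [← Finset.mul_sum, Fin.val_last]
      have h1 := sum_half_pow_le s
      have h2 : (1 / 4 : ℝ) ^ s ≤ 2 * q := by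
        have h3 : (1 / 4 : ℝ) ^ s ≤ (1 / 2) ^ s := pow_le_pow_left₀ (by norm_num) (by norm_num) s
        have h4 : (1 / 2 : ℝ) ^ s * 2 ^ s = 1 := by rw [← mul_pow]; norm_num
        have h5 : (0 : ℝ) < (1 / 2) ^ s := by positivity
        rw [pow_succ] at hs1
        nlinarith
      have h6 : (1 : ℝ) ≤ 2 ^ s := one_le_pow₀ (by norm_num)
      have h7 : (0 : ℝ) ≤ (1 / 4) ^ s := by positivity
      have h8 : (1 - q * (2 ^ s - 1)) * (16 * (1 / 4 : ℝ) ^ s) ≤ 16 * (1 / 4 : ℝ) ^ s := by
        have : 0 ≤ q * (2 ^ s - 1) := mul_nonneg hq0.le (by linarith)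
        nlinarith
      nlinarith
    have hm0 : 0 ≤ ∑ γ, w γ * (16 * (1 / 4 : ℝ) ^ (γ : ℕ)) :=
      Finset.sum_nonneg fun γ _ => mul_nonneg (hw.nonneg γ) (by positivity)
    simp only [Z]
    rw [Ex_sum]
    calc _ ≤ ∑ S ∈ Finset.univ.erase (∅ : Finset α), (1 / 8) * (g S * r ^ S.card) := by
          refine Finset.sum_le_sum fun S hS => ?_
          rw [Ex_const_mul, Ex_prod_subset hw.sum_one S (fun _ γ => 16 * (1 / 4 : ℝ) ^ (γ : ℕ)),
            Finset.prod_const]
          have hS' : 1 ≤ S.card := Finset.card_pos.2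
            (Finset.nonempty_iff_ne_empty.2 (Finset.ne_of_mem_erase hS))
          have h1 : (∑ γ, w γ * (16 * (1 / 4 : ℝ) ^ (γ : ℕ))) ^ S.card ≤ (r / 8) ^ S.card :=
            pow_le_pow_left₀ hm0 hm _
          have h2 : (r / 8) ^ S.card ≤ (1 / 8) * r ^ S.card := by
            rw [div_eq_mul_one_div r, mul_pow, mul_comm]
            refine mul_le_mul_of_nonneg_right ?_ (pow_nonneg hr0 _)
            calc (1 / 8 : ℝ) ^ S.card ≤ (1 / 8) ^ 1 :=
                  pow_le_pow_of_le_one (by norm_num) (by norm_num) hS'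
              _ = _ := pow_one _
          have := mul_le_mul_of_nonneg_left (h1.trans h2) (hg S)
          linarith
      _ ≤ ∑ S : Finset α, (1 / 8) * (g S * r ^ S.card) :=
          Finset.sum_le_sum_of_subset_of_nonneg (Finset.erase_subset _ _) fun S _ _ =>
            mul_nonneg (by norm_num) (mul_nonneg (hg S) (pow_nonneg hr0 _))
      _ ≤ _ := by rw [← Finset.mul_sum]; linarith
  have hgood : ∀ τ : α → Fin (s + 1), (∃ B ∈ F, Sel.OK rk τ (fun _ => 0) B) → 1 ≤ 4 * Z τ := by
    rintro τ ⟨A, hA, hOK⟩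
    obtain ⟨GA, hGA⟩ : ∃ GA, GA = ∑ S ∈ A.powerset.erase ∅, g S := ⟨_, rfl⟩
    have hGA1 : 1 / 2 ≤ GA := by
      have h1 := hcov A hA
      rw [← Finset.add_sum_erase _ _ (Finset.empty_mem_powerset A)] at h1
      linarith
    have hswap : ∀ f : α → ℝ, ∑ x ∈ A, lam A x * f x =
        ∑ S ∈ A.powerset.erase ∅, g S * ((∑ x ∈ S, f x) / S.card) := by
      intro f
      simp only [lam, Finset.sum_mul]
      rw [Finset.sum_comm, ← Finset.add_sum_erase _ _ (Finset.empty_mem_powerset A)]
      simp only [Finset.card_empty, Nat.cast_zero, div_zero, mul_zero, zero_mul,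
        Finset.sum_const_zero, zero_add]
      refine Finset.sum_congr rfl fun S hS => ?_
      have hSA : S ⊆ A := Finset.mem_powerset.1 (Finset.mem_of_mem_erase hS)
      rw [← Finset.sum_subset hSA (fun x _ hx => by simp [ind_false hx]), Finset.sum_div,
        Finset.mul_sum]
      exact Finset.sum_congr rfl fun x hx => by rw [ind_true hx]; ring
    have htot : ∑ x ∈ A, lam A x = GA := by
      have := hswap (fun _ => 1)
      simp only [mul_one] at this
      rw [this, hGA]
      refine Finset.sum_congr rfl fun S hS => ?_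
      have hS' : (S.card : ℝ) ≠ 0 := by
        have := Finset.card_pos.2 (Finset.nonempty_iff_ne_empty.2 (Finset.ne_of_mem_erase hS))
        positivity
      simp [hS']
    have hlev : ∑ x ∈ A, lam A x * (τ x : ℕ) ≤ GA := by
      have e1 : ∀ x, ((τ x : ℕ) : ℝ) = ∑ i : Fin s, ind ((i : ℕ) < τ x) := by
        intro x
        rw [Fin.sum_univ_eq_sum_range (fun i => ind (i < (τ x : ℕ))), sum_ind_eq_card]
        have : (Finset.range s).filter (fun i => i < (τ x : ℕ)) = Finset.range (τ x) := by
          ext i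
          have := (τ x).2
          simp only [Finset.mem_filter, Finset.mem_range]; omega
        rw [this, Finset.card_range]
      simp only [e1, Finset.mul_sum]
      rw [Finset.sum_comm]
      calc _ ≤ ∑ i : Fin s, (GA / 2) * (1 / 2 : ℝ) ^ (i : ℕ) := by
            refine Finset.sum_le_sum fun i _ => ?_
            have h1 := habel A (fun x => (i : ℕ) < τ x) (2 ^ ((i : ℕ) + 1)) (fun j => by
              rcases hOK i j with h | h
              · unfold Sel.cnt at h; rw [h]; simp
              · simpa [Sel.cnt] using h)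
            rw [htot, Finset.sum_filter] at h1
            have h2 : ∑ x ∈ A, lam A x * ind ((i : ℕ) < τ x) =
                ∑ x ∈ A, if (i : ℕ) < τ x then lam A x else 0 :=
              Finset.sum_congr rfl fun x _ => by rw [ind_eq_ite]; split_ifs <;> simp
            rw [h2]
            push_cast at h1
            have h3 : (2 : ℝ) ^ ((i : ℕ) + 1) * ((1 / 2) * (1 / 2) ^ (i : ℕ)) = 1 := by
              rw [pow_succ, one_div_pow]; field_simp
            have h4 : (0 : ℝ) ≤ (1 / 2) * (1 / 2) ^ (i : ℕ) := by positivity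
            have := mul_le_mul_of_nonneg_right h1 h4
            calc _ = (∑ x ∈ A, if (i : ℕ) < τ x then lam A x else 0) *
                  ((2 : ℝ) ^ ((i : ℕ) + 1) * ((1 / 2) * (1 / 2) ^ (i : ℕ))) := by rw [h3, mul_one]
              _ ≤ GA * ((1 / 2) * (1 / 2) ^ (i : ℕ)) := by linarith
              _ = _ := by ring
        _ ≤ GA := by
            rw [← Finset.mul_sum]
            have := sum_half_pow_le s
            nlinarith
    rw [hswap] at hlev
    have h5 : GA - GA / 2 ≤ Z τ := by
      calc GA - GA / 2 ≤ ∑ S ∈ A.powerset.erase ∅,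
            g S * (1 - (∑ x ∈ S, ((τ x : ℕ) : ℝ)) / S.card / 2) := by
            simp only [mul_sub, mul_one, Finset.sum_sub_distrib, ← mul_div_assoc (g _) _ 2]
            rw [← Finset.sum_div, ← hGA]
            linarith
        _ ≤ ∑ S ∈ A.powerset.erase ∅, g S * ∏ x ∈ S, (16 * (1 / 4 : ℝ) ^ (τ x : ℕ)) := by
            refine Finset.sum_le_sum fun S hS => mul_le_mul_of_nonneg_left ?_ (hg S)
            have hS' := Finset.card_pos.2
              (Finset.nonempty_iff_ne_empty.2 (Finset.ne_of_mem_erase hS))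
            have := one_sub_le_pow S.card (∑ x ∈ S, (τ x : ℕ)) hS'
            rw [Finset.prod_mul_distrib, Finset.prod_const, Finset.prod_pow_eq_pow_sum]
            push_cast at this
            exact this
        _ ≤ Z τ := Finset.sum_le_sum_of_subset_of_nonneg
            (Finset.erase_subset_erase _ (Finset.subset_univ _)) fun S _ _ => hZ0 τ S
    linarith
  have h9 := Pr_le_of_le hw.nonneg (F := fun τ => 4 * Z τ)
    (fun τ => mul_nonneg (by norm_num) (Finset.sum_nonneg fun S _ => hZ0 τ S)) hgood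
  rw [Ex_const_mul] at h9
  linarith

end Crest.Agent.R52
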