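import Crest.Agent.R52.Prob

/-!
A multi-level selector theorem: if a family is not `p`-small then, with probability at least 1/2
over i.i.d. arrival levels, some member has geometrically few late elements in all initial segments.
-/

set_option autoImplicit false
set_option linter.unusedSectionVars false

open Finset

namespace Crest.Agent.R52.Sel

variable {α : Type} [Fintype α] [DecidableEq α] {s : ℕ}

/-- Number of elements of `A` of rank below `j` and level above `i`. -/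
def cnt (rk : Finset α → α → ℕ) (A : Finset α) (τ : α → Fin (s + 1)) (i j : ℕ) : ℕ :=
  (A.filter (fun x => rk A x < j ∧ i < (τ x : ℕ))).card

/-- The condition with slack `T`. -/
def OK (rk : Finset α → α → ℕ) (τ : α → Fin (s + 1)) (T : ℕ → ℕ) (A : Finset α) : Prop :=
  ∀ i j, cnt rk A τ i j = 0 ∨ 2 ^ (i + 1) * (cnt rk A τ i j + T i) ≤ j

/-- The moved elements. -/
def mv (τ τ' : α → Fin (s + 1)) : Finset α := Finset.univ.filter (fun x => τ' x < τ x)

/-- Cumulative slack. -/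
def cum (τ' : α → Fin (s + 1)) (U : Finset α) (i : ℕ) : ℕ :=
  (U.filter (fun x => (τ' x : ℕ) ≤ i)).card

lemma exists_fix (rk : Finset α → α → ℕ) (F : Finset (Finset α)) (τ : α → Fin (s + 1))
    {A : Finset α} (hA : A ∈ F) :
    ∃ τ' : α → Fin (s + 1), (∀ x, τ' x ≤ τ x) ∧ mv τ τ' ⊆ A ∧
      (∃ B ∈ F, OK rk τ' (cum τ' (mv τ τ')) B) ∧
      ∀ B ∈ F, OK rk τ' (cum τ' (mv τ τ')) B → ∀ x ∈ mv τ τ',
        x ∈ B ∧ rk B x < 2 ^ ((τ' x : ℕ) + 1) * cum τ' (mv τ τ') (τ' x) := by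
  classical
  let S : Finset (α → Fin (s + 1)) := Finset.univ.filter (fun τ' => (∀ x, τ' x ≤ τ x) ∧
    mv τ τ' ⊆ A ∧ ∃ B ∈ F, OK rk τ' (cum τ' (mv τ τ')) B)
  have hne : S.Nonempty := by
    refine ⟨fun x => if x ∈ A then 0 else τ x, ?_⟩
    simp only [S, Finset.mem_filter, Finset.mem_univ, true_and]
    refine ⟨fun x => ?_, fun x hx => ?_, A, hA, fun i j => Or.inl ?_⟩
    · split_ifs
      · exact Fin.zero_le _
      · exact le_rfl
    · by_contra h
      simp [mv, h] at hx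
    · unfold cnt
      rw [Finset.card_eq_zero, Finset.filter_eq_empty_iff]
      intro x hx
      simp [hx]
  obtain ⟨τ', hτ', hmax⟩ := Finset.exists_max_image S (fun τ' => ∑ x, (τ' x : ℕ)) hne
  simp only [S, Finset.mem_filter, Finset.mem_univ, true_and] at hτ' hmax
  obtain ⟨hle, hsub, hex⟩ := hτ'
  refine ⟨τ', hle, hsub, hex, ?_⟩
  intro B hB hOK x hx
  by_contra hcon
  have hx' : (τ' x : ℕ) < τ x := by simpa [mv] using hx
  have hlt : (τ' x : ℕ) + 1 < s + 1 := by have := (τ x).2; omega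
  obtain ⟨i0, hi0⟩ : ∃ i0 : ℕ, i0 = (τ' x : ℕ) := ⟨_, rfl⟩
  let τ'' : α → Fin (s + 1) := Function.update τ' x ⟨(τ' x : ℕ) + 1, hlt⟩
  have e1 : (τ'' x : ℕ) = i0 + 1 := by simp [τ'', hi0]
  have e2 : ∀ y, y ≠ x → τ'' y = τ' y := fun y hy => by simp [τ'', hy]
  have hmv : mv τ τ'' ⊆ mv τ τ' := by
    intro y hy
    by_cases h : y = x
    · rw [h]; exact hx
    · simpa [mv, e2 y h] using hy
  have hcum : ∀ i, cum τ'' (mv τ τ'') i ≤ cum τ' (mv τ τ') i := by
    intro i
    refine Finset.card_le_card fun y hy => ?_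
    rw [Finset.mem_filter] at hy ⊢
    refine ⟨hmv hy.1, ?_⟩
    by_cases h : y = x
    · have := hy.2; rw [h] at this ⊢; omega
    · rw [← e2 y h]; exact hy.2
  have hcum0 : cum τ'' (mv τ τ'') i0 + 1 ≤ cum τ' (mv τ τ') i0 := by
    have hsub' : (mv τ τ'').filter (fun y => (τ'' y : ℕ) ≤ i0) ⊆
        ((mv τ τ').filter (fun y => (τ' y : ℕ) ≤ i0)).erase x := by
      intro y hy
      rw [Finset.mem_filter] at hy
      have h : y ≠ x := by
        rintro rfl
        have := hy.2; omega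
      rw [Finset.mem_erase, Finset.mem_filter]
      exact ⟨h, hmv hy.1, by rw [← e2 y h]; exact hy.2⟩
    have hxm : x ∈ (mv τ τ').filter (fun y => (τ' y : ℕ) ≤ i0) := by
      rw [Finset.mem_filter]; exact ⟨hx, by omega⟩
    have := Finset.card_le_card hsub'
    rw [Finset.card_erase_of_mem hxm] at this
    have hpos := Finset.card_pos.2 ⟨x, hxm⟩
    unfold cum
    omega
  have hcnt1 : ∀ i j, (i ≠ i0 ∨ x ∉ B ∨ j ≤ rk B x) → cnt rk B τ'' i j = cnt rk B τ' i j := by
    intro i j h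
    unfold cnt
    congr 1
    refine Finset.filter_congr fun y hy => ?_
    by_cases hyx : y = x
    · subst hyx
      rcases h with h | h | h
      · rw [e1]; omega
      · exact absurd hy h
      · omega
    · rw [e2 y hyx]
  have hcnt2 : ∀ i j, cnt rk B τ'' i j ≤ cnt rk B τ' i j + 1 := by
    intro i j
    unfold cnt
    refine le_trans (Finset.card_le_card (t := insert x _) fun y hy => ?_) (Finset.card_insert_le _ _)
    by_cases hyx : y = x
    · rw [hyx]; exact Finset.mem_insert_self _ _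
    · rw [Finset.mem_filter, e2 y hyx] at hy
      exact Finset.mem_insert_of_mem (Finset.mem_filter.2 hy)
  have hOK'' : OK rk τ'' (cum τ'' (mv τ τ'')) B := by
    intro i j
    by_cases h : i ≠ i0 ∨ x ∉ B ∨ j ≤ rk B x
    · rw [hcnt1 i j h]
      rcases hOK i j with h1 | h1
      · exact Or.inl h1
      · exact Or.inr (le_trans (Nat.mul_le_mul_left _ (by have := hcum i; omega)) h1)
    · push Not at h
      obtain ⟨rfl, hxB, hj⟩ := h
      right
      have hz : 2 ^ (i + 1) * cum τ' (mv τ τ') i ≤ rk B x := by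
        by_contra hz
        exact hcon ⟨hxB, by rw [← hi0]; omega⟩
      have h2 := hcnt2 i j
      rcases hOK i j with h1 | h1
      · refine le_trans (Nat.mul_le_mul_left _ (show _ ≤ cum τ' (mv τ τ') i by omega)) ?_
        omega
      · exact le_trans (Nat.mul_le_mul_left _ (by omega)) h1
  have hmem := hmax τ'' ⟨?_, hmv.trans hsub, B, hB, hOK''⟩
  · have : ∑ y, (τ' y : ℕ) < ∑ y, (τ'' y : ℕ) := by
      refine Finset.sum_lt_sum (fun y _ => ?_) ⟨x, Finset.mem_univ _, by omega⟩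
      by_cases hyx : y = x
      · rw [hyx]; omega
      · rw [e2 y hyx]
    omega
  · intro y
    by_cases hyx : y = x
    · rw [hyx, Fin.le_def]; omega
    · rw [e2 y hyx]; exact hle y

open Classical in
/-- The canonical explanation. -/
noncomputable def can (rk : Finset α → α → ℕ) (F : Finset (Finset α)) (τ' : α → Fin (s + 1))
    (T : ℕ → ℕ) : Finset α :=
  if h : ∃ B ∈ F, OK rk τ' T B then h.choose else ∅

lemma can_spec (rk : Finset α → α → ℕ) (F : Finset (Finset α)) (τ' : α → Fin (s + 1))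
    (T : ℕ → ℕ) (h : ∃ B ∈ F, OK rk τ' T B) :
    can rk F τ' T ∈ F ∧ OK rk τ' T (can rk F τ' T) := by
  unfold can
  rw [dif_pos h]
  exact h.choose_spec

/-- Candidates for the moved set, given the lowered levels. -/
def Cand (rk : Finset α → α → ℕ) (F : Finset (Finset α)) (τ' : α → Fin (s + 1))
    (U : Finset α) : Prop :=
  U.Nonempty ∧ (∀ x ∈ U, (τ' x : ℕ) < s) ∧ (∃ B ∈ F, OK rk τ' (cum τ' U) B) ∧
    ∀ x ∈ U, x ∈ can rk F τ' (cum τ' U) ∧
      rk (can rk F τ' (cum τ' U)) x < 2 ^ ((τ' x : ℕ) + 1) * cum τ' U (τ' x)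

lemma exists_cand (rk : Finset α → α → ℕ) (F : Finset (Finset α)) (τ : α → Fin (s + 1))
    (hbad : ¬ ∃ B ∈ F, OK rk τ (fun _ => 0) B) {A : Finset α} (hA : A ∈ F) :
    ∃ U, U ⊆ A ∧ ∃ τ' : α → Fin (s + 1), (∀ x, x ∉ U → τ x = τ' x) ∧ Cand rk F τ' U := by
  obtain ⟨τ', hle, hsub, hex, hall⟩ := exists_fix rk F τ hA
  have heq : ∀ x, x ∉ mv τ τ' → τ x = τ' x := by
    intro x hx
    simp only [mv, Finset.mem_filter, Finset.mem_univ, true_and, not_lt] at hx
    exact le_antisymm hx (hle x)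
  refine ⟨mv τ τ', hsub, τ', heq, ?_, ?_, hex, ?_⟩
  · rw [Finset.nonempty_iff_ne_empty]
    intro he
    apply hbad
    have : τ = τ' := funext fun x => heq x (by simp [he])
    obtain ⟨B, hB, hOK⟩ := hex
    refine ⟨B, hB, ?_⟩
    rw [he, ← this] at hOK
    simpa [OK, cum] using hOK
  · intro x hx
    have hx' : (τ' x : ℕ) < τ x := by simpa [mv] using hx
    have := (τ x).2
    omega
  · obtain ⟨h1, h2⟩ := can_spec rk F τ' _ hex
    exact hall _ h1 h2

/-- Level counts. -/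
def tv (τ' : α → Fin (s + 1)) (U : Finset α) (i : Fin s) : ℕ :=
  (U.filter (fun x => (τ' x : ℕ) = i)).card

/-- Cumulative sums of a count vector. -/
def cumt (t : Fin s → ℕ) (i : ℕ) : ℕ := ∑ k ∈ Finset.univ.filter (fun k : Fin s => (k : ℕ) ≤ i), t k

lemma cum_eq (τ' : α → Fin (s + 1)) (U : Finset α) (hU : ∀ x ∈ U, (τ' x : ℕ) < s) :
    cum τ' U = cumt (tv τ' U) := by
  funext i
  unfold cum cumt tv
  rw [← Finset.card_biUnion]
  · congr 1
    ext x
    simp only [Finset.mem_filter, Finset.mem_biUnion, Finset.mem_univ, true_and]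
    constructor
    · rintro ⟨h1, h2⟩
      exact ⟨⟨τ' x, hU x h1⟩, h2, h1, rfl⟩
    · rintro ⟨k, h1, h2, h3⟩
      exact ⟨h2, by omega⟩
  · intro k _ k' _ hkk
    simp only [Function.onFun, Finset.disjoint_left, Finset.mem_filter]
    rintro x ⟨_, h1⟩ ⟨_, h2⟩
    exact hkk (Fin.ext (by omega))

lemma card_eq_sum_tv (τ' : α → Fin (s + 1)) (U : Finset α) (hU : ∀ x ∈ U, (τ' x : ℕ) < s) :
    U.card = ∑ i, tv τ' U i := by
  have h := congrFun (cum_eq τ' U hU) s
  unfold cum cumt at h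
  rw [Finset.filter_true_of_mem (fun x hx => (hU x hx).le),
    Finset.filter_true_of_mem (fun k _ => k.2.le)] at h
  exact h

lemma cumt_le (t : Fin s → ℕ) (i : ℕ) : cumt t i ≤ ∑ k, t k :=
  Finset.sum_le_sum_of_subset (Finset.filter_subset _ _)

lemma card_zone_le {rk : Finset α → α → ℕ} {B : Finset α} (hinj : Set.InjOn (rk B) B)
    {τ' : α → Fin (s + 1)} {T : ℕ → ℕ} (hOK : OK rk τ' T B) (i : ℕ) :
    (B.filter (fun x => rk B x < 2 ^ (i + 1) * T i ∧ (τ' x : ℕ) = i)).card ≤ 2 * T i := by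
  rcases Nat.eq_zero_or_pos i with rfl | hi
  · calc _ ≤ (Finset.range (2 * T 0)).card := by
          refine Finset.card_le_card_of_injOn (rk B) ?_ ?_
          · intro x hx
            simp only [Finset.coe_filter, Set.mem_ofPred_eq] at hx
            simpa using hx.2.1
          · exact hinj.mono fun x hx => (Finset.mem_filter.1 hx).1
      _ = _ := Finset.card_range _
  · obtain ⟨k, rfl⟩ : ∃ k, i = k + 1 := ⟨i - 1, by omega⟩
    have h1 : (B.filter (fun x => rk B x < 2 ^ (k + 1 + 1) * T (k + 1) ∧ (τ' x : ℕ) = k + 1)).card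
        ≤ cnt rk B τ' k (2 ^ (k + 1 + 1) * T (k + 1)) := by
      refine Finset.card_le_card fun x hx => ?_
      rw [Finset.mem_filter] at hx ⊢
      exact ⟨hx.1, hx.2.1, by omega⟩
    refine h1.trans ?_
    rcases hOK k (2 ^ (k + 1 + 1) * T (k + 1)) with h | h
    · omega
    · have h2 : 2 ^ (k + 1) * cnt rk B τ' k (2 ^ (k + 1 + 1) * T (k + 1)) ≤
          2 ^ (k + 1) * (2 * T (k + 1)) := by
        calc _ ≤ _ := Nat.mul_le_mul_left _ (Nat.le_add_right _ (T k))
          _ ≤ _ := h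
          _ = _ := by ring
      exact Nat.le_of_mul_le_mul_left h2 (by positivity)

lemma card_cand_fiber_le {rk : Finset α → α → ℕ} {F : Finset (Finset α)}
    (hinj : ∀ B ∈ F, Set.InjOn (rk B) B) (τ' : α → Fin (s + 1)) (t : Fin s → ℕ)
    (𝒰 : Finset (Finset α)) (h𝒰 : ∀ U ∈ 𝒰, Cand rk F τ' U ∧ tv τ' U = t) :
    𝒰.card ≤ ∏ i, (2 * ∑ k, t k).choose (t i) := by
  rcases 𝒰.eq_empty_or_nonempty with rfl | ⟨U₀, hU₀⟩
  · simp
  obtain ⟨⟨-, h2, h3, -⟩, h5⟩ := h𝒰 U₀ hU₀
  rw [cum_eq τ' U₀ h2, h5] at h3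
  obtain ⟨hB, hOK⟩ := can_spec rk F τ' _ h3
  set B := can rk F τ' (cumt t) with hBdef
  let C : Fin s → Finset α := fun i =>
    B.filter (fun x => rk B x < 2 ^ ((i : ℕ) + 1) * cumt t i ∧ (τ' x : ℕ) = i)
  have hC : ∀ i, (C i).card ≤ 2 * ∑ k, t k := fun i =>
    (card_zone_le (hinj B hB) hOK i).trans (Nat.mul_le_mul_left _ (cumt_le t i))
  calc 𝒰.card ≤ (Fintype.piFinset (fun i => (C i).powersetCard (t i))).card := by
        refine Finset.card_le_card_of_injOn
          (fun U i => U.filter (fun x => (τ' x : ℕ) = i)) ?_ ?_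
        · intro U hU
          obtain ⟨⟨-, g2, -, g4⟩, g5⟩ := h𝒰 U hU
          rw [cum_eq τ' U g2, g5] at g4
          simp only [Finset.mem_coe, Fintype.mem_piFinset, Finset.mem_powersetCard]
          intro i
          refine ⟨fun x hx => ?_, congrFun g5 i⟩
          rw [Finset.mem_filter] at hx
          have := g4 x hx.1
          rw [hx.2] at this
          exact Finset.mem_filter.2 ⟨this.1, this.2, hx.2⟩
        · intro U hU U' hU' h
          have g2 := (h𝒰 U hU).1.2.1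
          have g2' := (h𝒰 U' hU').1.2.1
          ext x
          constructor
          · intro hx
            have := congrFun h ⟨τ' x, g2 x hx⟩
            have h3 : x ∈ U.filter (fun y => (τ' y : ℕ) = (τ' x : ℕ)) := by simp [hx]
            simp only at this
            rw [this] at h3
            exact (Finset.mem_filter.1 h3).1
          · intro hx
            have := congrFun h ⟨τ' x, g2' x hx⟩
            have h3 : x ∈ U'.filter (fun y => (τ' y : ℕ) = (τ' x : ℕ)) := by simp [hx]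
            simp only at this
            rw [← this] at h3
            exact (Finset.mem_filter.1 h3).1
    _ = ∏ i, (C i).card.choose (t i) := by
        rw [Fintype.card_piFinset]
        simp only [Finset.card_powersetCard]
    _ ≤ _ := Finset.prod_le_prod' fun i _ => Nat.choose_le_choose _ (hC i)

lemma sum_vec_le (y : Fin s → ℝ) (hy : ∀ i, 0 ≤ y i) (hsum : ∑ i, y i ≤ 1 / 32) (T : ℕ)
    (𝒯 : Finset (Fin s → ℕ)) (h𝒯 : ∀ t ∈ 𝒯, ∑ k, t k = T) :
    ∑ t ∈ 𝒯, ∏ i, (((2 * T).choose (t i) : ℝ) * y i ^ t i) ≤ (1 / 5) ^ T := by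
  have h1 : ∑ t ∈ 𝒯, ∏ i, (((2 * T).choose (t i) : ℝ) * y i ^ t i) =
      (1 / 16) ^ T * ∑ t ∈ 𝒯, ∏ i, (((2 * T).choose (t i) : ℝ) * (16 * y i) ^ t i) := by
    rw [Finset.mul_sum]
    refine Finset.sum_congr rfl fun t ht => ?_
    simp only [mul_pow, Finset.prod_mul_distrib, Finset.prod_pow_eq_pow_sum, h𝒯 t ht]
    have : (1 / 16 : ℝ) ^ T * 16 ^ T = 1 := by rw [← mul_pow]; norm_num
    linear_combination (-(∏ i, ((2 * T).choose (t i) : ℝ)) * ∏ i, y i ^ t i) * this
  have h2 : ∑ t ∈ 𝒯, ∏ i, (((2 * T).choose (t i) : ℝ) * (16 * y i) ^ t i) ≤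
      ∏ i, (1 + 16 * y i) ^ (2 * T) := by
    have h3 : ∀ i, (1 + 16 * y i) ^ (2 * T) =
        ∑ k ∈ Finset.range (2 * T + 1), ((2 * T).choose k : ℝ) * (16 * y i) ^ k := by
      intro i
      rw [add_comm, add_pow]
      exact Finset.sum_congr rfl fun k _ => by simp [mul_comm]
    simp only [h3]
    rw [Finset.prod_univ_sum]
    refine Finset.sum_le_sum_of_subset_of_nonneg ?_ ?_
    · intro t ht
      rw [Fintype.mem_piFinset]
      intro i
      have : t i ≤ ∑ k, t k := Finset.single_le_sum (f := t) (fun _ _ => Nat.zero_le _)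
        (Finset.mem_univ i)
      rw [h𝒯 t ht] at this
      simp; omega
    · intro t _ _
      exact Finset.prod_nonneg fun i _ => by have := hy i; positivity
  have h4 : ∏ i, (1 + 16 * y i) ^ (2 * T) ≤ (16 / 5 : ℝ) ^ T := by
    rw [Finset.prod_pow, pow_mul]
    refine pow_le_pow_left₀ (sq_nonneg _) ?_ T
    have h5 : ∏ i, (1 + 16 * y i) ≤ Real.exp (1 / 2) := by
      calc ∏ i, (1 + 16 * y i) ≤ ∏ i, Real.exp (16 * y i) :=
            Finset.prod_le_prod (fun i _ => by have := hy i; positivity)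
              (fun i _ => by rw [add_comm]; exact Real.add_one_le_exp _)
        _ = Real.exp (∑ i, 16 * y i) := (Real.exp_sum _ _).symm
        _ ≤ _ := by
            rw [← Finset.mul_sum]
            exact Real.exp_le_exp.2 (by linarith)
    have h6 : 0 ≤ ∏ i, (1 + 16 * y i) := Finset.prod_nonneg fun i _ => by have := hy i; positivity
    calc (∏ i, (1 + 16 * y i)) ^ 2 ≤ Real.exp (1 / 2) ^ 2 := pow_le_pow_left₀ h6 h5 2
      _ = Real.exp 1 := by rw [← Real.exp_nat_mul]; norm_num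
      _ ≤ 16 / 5 := by have := Real.exp_one_lt_d9; linarith
  rw [h1]
  calc _ ≤ (1 / 16 : ℝ) ^ T * (16 / 5) ^ T :=
        mul_le_mul_of_nonneg_left (h2.trans h4) (by positivity)
    _ = _ := by rw [← mul_pow]; norm_num

lemma geom_le (M : ℕ) : ∑ T ∈ Finset.Icc 1 M, (1 / 5 : ℝ) ^ T ≤ 1 / 4 := by
  have : ∀ M : ℕ, ∑ T ∈ Finset.Icc 1 M, (1 / 5 : ℝ) ^ T = 1 / 4 - (1 / 4) * (1 / 5) ^ M := by
    intro M
    induction M with
    | zero => simp
    | succ M ih => rw [Finset.sum_Icc_succ_top (by omega), ih, pow_succ]; ring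
  rw [this]
  have : (0 : ℝ) ≤ (1 / 4) * (1 / 5) ^ M := by positivity
  linarith

lemma sum_cand_le {rk : Finset α → α → ℕ} {F : Finset (Finset α)}
    (hinj : ∀ B ∈ F, Set.InjOn (rk B) B) (τ' : α → Fin (s + 1)) (y : Fin (s + 1) → ℝ)
    (hy : ∀ i, 0 ≤ y i) (hsum : ∑ i : Fin s, y i.castSucc ≤ 1 / 32) :
    ∑ U : Finset α, ind (Cand rk F τ' U) * ∏ x ∈ U, y (τ' x) ≤ 1 / 4 := by
  classical
  let 𝒰 : Finset (Finset α) := Finset.univ.filter (Cand rk F τ')
  have h0 : ∑ U : Finset α, ind (Cand rk F τ' U) * ∏ x ∈ U, y (τ' x) =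
      ∑ U ∈ 𝒰, ∏ i : Fin s, y i.castSucc ^ tv τ' U i := by
    simp only [𝒰, Finset.sum_filter, ind_eq_ite]
    refine Finset.sum_congr rfl fun U _ => ?_
    split_ifs with h
    · rw [one_mul]
      rw [← Finset.prod_fiberwise_of_maps_to (s := U) (t := Finset.univ)
        (g := fun x => if hx : (τ' x : ℕ) < s then (⟨τ' x, hx⟩ : Fin s) else
          ⟨τ' h.1.choose, h.2.1 _ h.1.choose_spec⟩) (fun _ _ => Finset.mem_univ _)]
      refine Finset.prod_congr rfl fun i _ => ?_
      unfold tv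
      rw [← Finset.prod_const]
      refine Finset.prod_congr ?_ ?_
      · refine Finset.filter_congr fun x hx => ?_
        rw [dif_pos (h.2.1 x hx), Fin.ext_iff]
      · intro x hx
        rw [Finset.mem_filter] at hx
        congr 1
        exact Fin.ext hx.2
    · simp
  rw [h0]
  have hmaps : ∀ U ∈ 𝒰, U.card ∈ Finset.Icc 1 (Fintype.card α) := by
    intro U hU
    have := (Finset.mem_filter.1 hU).2.1
    rw [Finset.mem_Icc]
    exact ⟨Finset.card_pos.2 this, Finset.card_le_univ U⟩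
  rw [← Finset.sum_fiberwise_of_maps_to hmaps]
  refine le_trans (Finset.sum_le_sum fun T _ => ?_) (geom_le (Fintype.card α))
  set 𝒱 := 𝒰.filter (fun U => U.card = T) with h𝒱
  rw [← Finset.sum_fiberwise_of_maps_to (s := 𝒱) (t := 𝒱.image (tv τ')) (g := tv τ')
    (fun U hU => Finset.mem_image_of_mem _ hU)]
  have hT : ∀ t ∈ 𝒱.image (tv τ'), ∑ k, t k = T := by
    intro t ht
    obtain ⟨U, hU, rfl⟩ := Finset.mem_image.1 ht
    rw [Finset.mem_filter] at hU
    rw [← hU.2, card_eq_sum_tv τ' U (Finset.mem_filter.1 hU.1).2.2.1]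
  refine le_trans (Finset.sum_le_sum fun t ht => ?_)
    (sum_vec_le (fun i => y i.castSucc) (fun i => hy _) hsum T _ hT)
  rw [Finset.sum_congr rfl (g := fun _ => ∏ i : Fin s, y i.castSucc ^ t i)
    (fun U hU => by rw [(Finset.mem_filter.1 hU).2]), Finset.sum_const, nsmul_eq_mul,
    Finset.prod_mul_distrib]
  refine mul_le_mul_of_nonneg_right ?_ (Finset.prod_nonneg fun i _ => pow_nonneg (hy _) _)
  have := card_cand_fiber_le hinj τ' t (𝒱.filter (fun U => tv τ' U = t)) (fun U hU => by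
    rw [Finset.mem_filter, Finset.mem_filter, Finset.mem_filter] at hU
    exact ⟨hU.1.1.2, hU.2⟩)
  rw [hT t ht] at this
  exact_mod_cast this

/-- The multi-level selector theorem. -/
theorem selector {rk : Finset α → α → ℕ} {F : Finset (Finset α)}
    (hinj : ∀ B ∈ F, Set.InjOn (rk B) B) (w : Fin (s + 1) → ℝ) (hw : IsProb w)
    (hpos : ∀ i : Fin (s + 1), (i : ℕ) < s → 0 < w i) (p : ℝ) (hp : 0 ≤ p)
    (hsum : ∑ i : Fin s, p / w i.castSucc ≤ 1 / 32)
    (hns : ∀ G : Finset (Finset α), (∀ H ∈ F, ∃ S ∈ G, S ⊆ H) → 1 / 2 < ∑ S ∈ G, p ^ S.card) :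
    1 / 2 ≤ Pr w (fun τ : α → Fin (s + 1) => ∃ B ∈ F, OK rk τ (fun _ => 0) B) := by
  classical
  have h1 : ∀ τ : α → Fin (s + 1), (1 / 2) * ind (¬ ∃ B ∈ F, OK rk τ (fun _ => 0) B) ≤
      ∑ τ' : α → Fin (s + 1), ∑ U : Finset α,
        (ind (Cand rk F τ' U) * p ^ U.card) * ∏ x ∈ Uᶜ, ind (τ x = τ' x) := by
    intro τ
    have hnn : ∀ (τ' : α → Fin (s + 1)) (U : Finset α),
        0 ≤ (ind (Cand rk F τ' U) * p ^ U.card) * ∏ x ∈ Uᶜ, ind (τ x = τ' x) := fun τ' U =>
      mul_nonneg (mul_nonneg (ind_nonneg _) (pow_nonneg hp _))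
        (Finset.prod_nonneg fun _ _ => ind_nonneg _)
    by_cases hbad : ∃ B ∈ F, OK rk τ (fun _ => 0) B
    · rw [ind_false (not_not.2 hbad), mul_zero]
      exact Finset.sum_nonneg fun τ' _ => Finset.sum_nonneg fun U _ => hnn τ' U
    rw [ind_true hbad, mul_one]
    let G : Finset (Finset α) := Finset.univ.filter (fun U =>
      ∃ τ' : α → Fin (s + 1), (∀ x, x ∉ U → τ x = τ' x) ∧ Cand rk F τ' U)
    have hG := hns G (fun H hH => by
      obtain ⟨U, hU, h⟩ := exists_cand rk F τ hbad hH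
      exact ⟨U, Finset.mem_filter.2 ⟨Finset.mem_univ _, h⟩, hU⟩)
    refine hG.le.trans ?_
    rw [Finset.sum_comm]
    refine le_trans (Finset.sum_le_sum fun U hU => ?_)
      (Finset.sum_le_sum_of_subset_of_nonneg (Finset.subset_univ G)
        fun U _ _ => Finset.sum_nonneg fun τ' _ => hnn τ' U)
    obtain ⟨τ', h1, h2⟩ := (Finset.mem_filter.1 hU).2
    refine le_trans (le_of_eq ?_) (Finset.single_le_sum (fun τ' _ => hnn τ' U) (Finset.mem_univ τ'))
    rw [ind_true h2, Finset.prod_eq_one (fun x hx => ind_true (h1 x (by simpa using hx)))]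
    ring
  have h2 := Ex_mono hw.nonneg h1
  rw [Ex_const_mul, Ex_sum] at h2
  have h3 : ∀ τ' : α → Fin (s + 1), Ex w (fun τ : α → Fin (s + 1) => ∑ U : Finset α,
      (ind (Cand rk F τ' U) * p ^ U.card) * ∏ x ∈ Uᶜ, ind (τ x = τ' x)) ≤ pw w τ' * (1 / 4) := by
    intro τ'
    rw [Ex_sum]
    refine le_trans (le_of_eq ?_) (mul_le_mul_of_nonneg_left
      (sum_cand_le hinj τ' (fun i => p / w i) (fun i => div_nonneg hp (hw.nonneg i)) hsum)
      (pw_nonneg hw.nonneg τ'))
    rw [Finset.mul_sum]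
    refine Finset.sum_congr rfl fun U _ => ?_
    rw [Ex_const_mul, Ex_prod_subset hw.sum_one Uᶜ (fun x γ => ind (γ = τ' x))]
    by_cases hc : Cand rk F τ' U
    · have e1 : ∀ x, ∑ γ, w γ * ind (γ = τ' x) = w (τ' x) := by
        intro x
        simp [ind_eq_ite]
      simp only [e1]
      unfold pw
      rw [← Finset.prod_mul_prod_compl U (fun x => w (τ' x))]
      have e2 : (∏ x ∈ U, w (τ' x)) * ∏ x ∈ U, p / w (τ' x) = p ^ U.card := by
        rw [← Finset.prod_mul_distrib, ← Finset.prod_const]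
        refine Finset.prod_congr rfl fun x hx => ?_
        have := (hpos _ (hc.2.1 x hx)).ne'
        field_simp
      rw [← e2]; ring
    · rw [ind_false hc]; simp
  have h4 : ∑ τ' : α → Fin (s + 1), pw w τ' * (1 / 4) = 1 / 4 := by
    rw [← Finset.sum_mul, sum_pw hw.sum_one, one_mul]
  have h5 := h2.trans ((Finset.sum_le_sum fun τ' _ => h3 τ').trans h4.le)
  have h6 := Pr_not (ι := α) hw.sum_one (fun τ : α → Fin (s + 1) => ∃ B ∈ F, OK rk τ (fun _ => 0) B)
  unfold Pr at h6 ⊢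
  linarith

end Crest.Agent.R52.Sel
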