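import Crest.Agent.R52.Defs

/-!
Signed second moment over the symmetric group for star forests.
-/

set_option autoImplicit false
set_option linter.unusedSectionVars false

open Finset

namespace Crest.Agent.R52.StarForest

open Crest.CombinatoricsR.RandomGraph Crest.Agent.R52

section code

variable {n : ℕ} {κ : Type} [Fintype κ] [DecidableEq κ]

/-- The multiset of star sizes of a set of arcs. -/
def code (p : κ → Fin n) (T : Finset κ) : Multiset ℕ :=
  (T.image p).val.map (fun b => (T.filter (fun k => p k = b)).card)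

lemma code_sum (p : κ → Fin n) (T : Finset κ) : (code p T).sum = T.card :=
  (Finset.card_eq_sum_card_image p T).symm

lemma code_pos (p : κ → Fin n) (T : Finset κ) {i : ℕ} (hi : i ∈ code p T) : 0 < i := by
  obtain ⟨b, hb, rfl⟩ := Multiset.mem_map.1 hi
  obtain ⟨k, hk, rfl⟩ := Finset.mem_image.1 hb
  exact Finset.card_pos.2 ⟨k, Finset.mem_filter.2 ⟨hk, rfl⟩⟩

lemma card_codes (p : κ → Fin n) (t : ℕ) :
    ((univ.filter (fun T : Finset κ => T.card = t)).image (code p)).card ≤ 2 ^ t := by
  have h1 : (univ.filter (fun T : Finset κ => T.card = t)).image (code p) ⊆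
      (univ : Finset (Nat.Partition t)).image (fun P => P.parts) := by
    intro m hm
    obtain ⟨T, hT, rfl⟩ := Finset.mem_image.1 hm
    refine Finset.mem_image.2 ⟨⟨code p T, fun hi => code_pos p T hi, ?_⟩, Finset.mem_univ _, rfl⟩
    rw [code_sum, (Finset.mem_filter.1 hT).2]
  calc _ ≤ _ := Finset.card_le_card h1
    _ ≤ Fintype.card (Nat.Partition t) := Finset.card_image_le
    _ ≤ Fintype.card (Composition t) :=
      Fintype.card_le_of_surjective _ Nat.Partition.ofComposition_surj
    _ = 2 ^ (t - 1) := composition_card t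
    _ ≤ 2 ^ t := Nat.pow_le_pow_right (by norm_num) (Nat.sub_le _ _)

lemma exists_equiv_fiber {α β γ : Type} [DecidableEq γ] (S : Finset α) (S' : Finset β)
    (f : α → γ) (g : β → γ)
    (h : ∀ x, (S.filter (fun a => f a = x)).card = (S'.filter (fun b => g b = x)).card) :
    ∃ e : S ≃ S', ∀ a : S, g (e a) = f a := by
  classical
  have key : ∀ x, Nonempty ({a : S // f a = x} ≃ {b : S' // g b = x}) := by
    intro x
    rw [← Fintype.card_eq, Fintype.card_subtype, Fintype.card_subtype]
    have h1 : (univ.filter (fun a : S => f a = x)).card = (S.filter (fun a => f a = x)).card := by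
      rw [Finset.univ_eq_attach, Finset.filter_attach (fun a => f a = x), Finset.card_map,
        Finset.card_attach]
    have h2 : (univ.filter (fun b : S' => g b = x)).card =
        (S'.filter (fun b => g b = x)).card := by
      rw [Finset.univ_eq_attach, Finset.filter_attach (fun b => g b = x), Finset.card_map,
        Finset.card_attach]
    rw [h1, h2, h x]
  refine ⟨Equiv.ofFiberEquiv (f := fun a : S => f a) (g := fun b : S' => g b)
    (fun x => (key x).some), fun a => ?_⟩
  exact Equiv.ofFiberEquiv_map (f := fun a : S => f a) (g := fun b : S' => g b)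
    (fun x => (key x).some) a

lemma exists_perm_of_code (c p : κ → Fin n) (hc : Function.Injective c)
    (hcp : ∀ k k', c k ≠ p k') {T T' : Finset κ} (h : code p T = code p T') :
    ∃ (π : Equiv.Perm (Fin n)) (e : T ≃ T'),
      ∀ k : T, π (c k) = c (e k) ∧ π (p k) = p (e k) := by
  obtain ⟨eP, heP⟩ := exists_equiv_fiber (T.image p) (T'.image p)
    (fun b => (T.filter (fun k => p k = b)).card) (fun b => (T'.filter (fun k => p k = b)).card)
    (fun x => by
      have := congrArg (Multiset.count x) h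
      unfold code at this
      rw [Multiset.count_map, Multiset.count_map] at this
      simp only [eq_comm (a := x)] at this
      exact this)
  let q : κ → Fin n := fun k => if hk : p k ∈ T.image p then (eP ⟨p k, hk⟩ : Fin n) else p k
  have hq : ∀ k (hk : k ∈ T), q k = eP ⟨p k, Finset.mem_image_of_mem p hk⟩ := fun k hk =>
    dif_pos (Finset.mem_image_of_mem p hk)
  obtain ⟨eT, heT⟩ := exists_equiv_fiber T T' q p (fun x => by
    by_cases hx : x ∈ T'.image p
    · have h1 := heP (eP.symm ⟨x, hx⟩)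
      rw [Equiv.apply_symm_apply] at h1
      rw [h1]
      congr 1
      refine Finset.filter_congr fun k hk => ?_
      rw [hq k hk]
      constructor
      · intro h2
        have : eP ⟨p k, Finset.mem_image_of_mem p hk⟩ = ⟨x, hx⟩ := Subtype.ext h2
        rw [← this, Equiv.symm_apply_apply]
      · intro h2
        have : (⟨p k, Finset.mem_image_of_mem p hk⟩ : T.image p) = eP.symm ⟨x, hx⟩ :=
          Subtype.ext h2
        rw [this, Equiv.apply_symm_apply]
    · have e1 : T.filter (fun k => q k = x) = ∅ := by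
        refine Finset.filter_eq_empty_iff.2 ?_
        rintro k hk rfl
        rw [hq k hk] at hx
        exact hx (eP _).2
      have e2 : T'.filter (fun k => p k = x) = ∅ := by
        refine Finset.filter_eq_empty_iff.2 ?_
        rintro k hk rfl
        exact hx (Finset.mem_image_of_mem p hk)
      rw [e1, e2])
  have hne : ∀ (S : Finset κ) (k : κ) (b : S.image p), c k ≠ b := by
    intro S k b he
    obtain ⟨k', -, hk'⟩ := Finset.mem_image.1 b.2
    exact hcp k k' (he.trans hk'.symm)
  obtain ⟨π, hπ⟩ := Equiv.Perm.exists_extending_pair (α := T ⊕ T.image p)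
    (Sum.elim (fun k => c k) (fun b => (b : Fin n)))
    (Sum.elim (fun k => c (eT k)) (fun b => (eP b : Fin n)))
    (Function.Injective.sumElim (hc.comp Subtype.val_injective) Subtype.val_injective
      (fun k b => hne T k b))
    (Function.Injective.sumElim (hc.comp (Subtype.val_injective.comp eT.injective))
      (Subtype.val_injective.comp eP.injective) (fun k b => hne T' _ _))
  refine ⟨π, eT, fun k => ⟨hπ (Sum.inl k), ?_⟩⟩
  rw [heT k, hq k k.2]
  exact hπ (Sum.inr ⟨p k, Finset.mem_image_of_mem p k.2⟩)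

end code

section main

variable {n : ℕ} {κ : Type} [Fintype κ] [DecidableEq κ] (c p : κ → Fin n)
  (hcp : ∀ k k', c k ≠ p k')

/-- The edge slot of an arc. -/
def ed (k : κ) : EdgeSlot n := slot (c k) (p k) (hcp k k)

lemma ed_injective (hc : Function.Injective c) : Function.Injective (ed c p hcp) := by
  intro k k' h
  have h1 : s(c k, p k) = s(c k', p k') := congrArg Subtype.val h
  rcases Sym2.eq_iff.1 h1 with h2 | h2
  · exact hc h2.1
  · exact absurd h2.1 (hcp _ _)

lemma image_act_mul (π σ : Equiv.Perm (Fin n)) (X : Finset (EdgeSlot n)) :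
    X.image (act (π * σ)) = (X.image (act σ)).image (act π) := by
  rw [Finset.image_image]
  exact Finset.image_congr fun e _ => act_mul π σ e

lemma image_act_inv_iff (π : Equiv.Perm (Fin n)) (X Y : Finset (EdgeSlot n)) :
    X.image (act π⁻¹) = Y ↔ X = Y.image (act π) := by
  constructor
  · rintro rfl
    rw [← image_act_mul, mul_inv_cancel]
    exact (Finset.image_id'.symm.trans (Finset.image_congr fun e _ => (act_one e).symm))
  · rintro rfl
    rw [← image_act_mul, inv_mul_cancel]
    exact (Finset.image_congr fun e _ => act_one e).trans Finset.image_id'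

lemma exists_act_of_code (hc : Function.Injective c) {T T' : Finset κ}
    (h : code p T = code p T') :
    ∃ π : Equiv.Perm (Fin n), (T.image (ed c p hcp)).image (act π) = T'.image (ed c p hcp) := by
  obtain ⟨π, e, he⟩ := exists_perm_of_code c p hc hcp h
  have h1 : ∀ k : T, act π (ed c p hcp k) = ed c p hcp (e k) := by
    intro k
    apply Subtype.ext
    show s(π (c k), π (p k)) = s(c (e k), p (e k))
    rw [(he k).1, (he k).2]
  refine ⟨π, Finset.Subset.antisymm ?_ ?_⟩
  · intro x hx
    obtain ⟨y, hy, rfl⟩ := Finset.mem_image.1 hx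
    obtain ⟨k, hk, rfl⟩ := Finset.mem_image.1 hy
    rw [h1 ⟨k, hk⟩]
    exact Finset.mem_image_of_mem _ (e _).2
  · intro x hx
    obtain ⟨k, hk, rfl⟩ := Finset.mem_image.1 hx
    have := h1 (e.symm ⟨k, hk⟩)
    rw [Equiv.apply_symm_apply] at this
    exact Finset.mem_image.2 ⟨_, Finset.mem_image_of_mem _ (e.symm ⟨k, hk⟩).2, this⟩

/-- The number of pairs of permutations giving the same image. -/
noncomputable def Q (T : Finset κ) : ℝ :=
  ∑ π : Equiv.Perm (Fin n), ∑ π' : Equiv.Perm (Fin n),
    ind ((T.image (ed c p hcp)).image (act π) = (T.image (ed c p hcp)).image (act π'))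

lemma Q_eq (hc : Function.Injective c) {T₀ T : Finset κ} (h : code p T₀ = code p T) :
    Q c p hcp T = n.factorial * ∑ π : Equiv.Perm (Fin n),
      ind ((T₀.image (ed c p hcp)).image (act π) = T.image (ed c p hcp)) := by
  obtain ⟨σ, hσ⟩ := exists_act_of_code c p hcp hc h
  unfold Q
  rw [Finset.sum_comm]
  rw [Finset.sum_congr rfl (g := fun _ => ∑ π : Equiv.Perm (Fin n),
      ind ((T₀.image (ed c p hcp)).image (act π) = T.image (ed c p hcp)))]
  · rw [Finset.sum_const, Finset.card_univ, Fintype.card_perm, Fintype.card_fin, nsmul_eq_mul]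
  · intro π' _
    refine Fintype.sum_equiv ((Equiv.mulRight σ).trans (Equiv.mulLeft π'⁻¹)) _ _ fun π => ?_
    refine ind_congr ?_
    simp only [Equiv.trans_apply, Equiv.coe_mulRight, Equiv.coe_mulLeft]
    rw [image_act_mul, image_act_mul, hσ, image_act_inv_iff]

lemma sum_Q_le (hc : Function.Injective c) (E : Finset (EdgeSlot n))
    (hE : ∀ k, ed c p hcp k ∈ E) (r : ℝ) (hr : 0 ≤ r)
    (hspread : ∀ T : Finset (EdgeSlot n), T.Nonempty →
      ((Finset.univ.filter (fun π : Equiv.Perm (Fin n) => ∀ e ∈ T, act π e ∈ E)).card : ℝ) ≤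
        n.factorial * r ^ T.card) (t : ℕ) (ht : t ≠ 0) :
    ∑ T ∈ univ.filter (fun T : Finset κ => T.card = t), Q c p hcp T ≤
      (n.factorial : ℝ) ^ 2 * (2 * r) ^ t := by
  set S := univ.filter (fun T : Finset κ => T.card = t) with hS
  rw [← Finset.sum_fiberwise_of_maps_to (s := S) (t := S.image (code p)) (g := code p)
    (fun T hT => Finset.mem_image_of_mem _ hT)]
  have hf : (0 : ℝ) ≤ n.factorial := Nat.cast_nonneg _
  have key : ∀ m ∈ S.image (code p), ∑ T ∈ S.filter (fun T => code p T = m), Q c p hcp T ≤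
      (n.factorial : ℝ) ^ 2 * r ^ t := by
    intro m hm
    obtain ⟨T₀, hT₀, rfl⟩ := Finset.mem_image.1 hm
    have hT₀c : T₀.card = t := (Finset.mem_filter.1 hT₀).2
    have hcard : (T₀.image (ed c p hcp)).card = t := by
      rw [Finset.card_image_of_injective _ (ed_injective c p hcp hc), hT₀c]
    rw [Finset.sum_congr rfl (fun T hT => Q_eq c p hcp hc (Finset.mem_filter.1 hT).2.symm),
      ← Finset.mul_sum, Finset.sum_comm, sq, mul_assoc]
    refine mul_le_mul_of_nonneg_left ?_ hf
    have h1 := hspread (T₀.image (ed c p hcp)) (Finset.card_pos.1 (by omega))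
    rw [hcard, ← sum_ind_eq_card] at h1
    refine le_trans (Finset.sum_le_sum fun π _ => ?_) h1
    by_cases hπ : ∀ e ∈ T₀.image (ed c p hcp), act π e ∈ E
    · rw [ind_true hπ, sum_ind_eq_card]
      have : ((S.filter (fun T => code p T = code p T₀)).filter (fun T =>
          (T₀.image (ed c p hcp)).image (act π) = T.image (ed c p hcp))).card ≤ 1 := by
        refine Finset.card_le_one.2 fun T hT T' hT' => ?_
        exact Finset.image_injective (ed_injective c p hcp hc)
          ((Finset.mem_filter.1 hT).2.symm.trans (Finset.mem_filter.1 hT').2)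
      exact_mod_cast this
    · rw [ind_false hπ]
      refine le_of_eq (Finset.sum_eq_zero fun T _ => ind_false fun h => hπ fun e he => ?_)
      have : act π e ∈ T.image (ed c p hcp) := h ▸ Finset.mem_image_of_mem _ he
      obtain ⟨k, -, hk⟩ := Finset.mem_image.1 this
      exact hk ▸ hE k
  calc _ ≤ (S.image (code p)).card • ((n.factorial : ℝ) ^ 2 * r ^ t) :=
        Finset.sum_le_card_nsmul _ _ _ key
    _ ≤ (2 : ℝ) ^ t * ((n.factorial : ℝ) ^ 2 * r ^ t) := by
        rw [nsmul_eq_mul]
        refine mul_le_mul_of_nonneg_right ?_ (by positivity)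
        exact_mod_cast card_codes p t
    _ = _ := by rw [mul_pow]; ring

/-- The averaged character. -/
noncomputable def X (ρ : ℝ) (T : Finset κ) (ω : EdgeSlot n → Bool) : ℝ :=
  (n.factorial : ℝ)⁻¹ * ∑ π : Equiv.Perm (Fin n),
    chi (xi ρ) ((T.image (ed c p hcp)).image (act π)) ω

lemma Ex_X_sq (hc : Function.Injective c) {ρ : ℝ} (hρ : ρ ≠ 0) (T : Finset κ) :
    Ex (bw ρ) (fun ω => X c p hcp ρ T ω ^ 2) =
      ((n.factorial : ℝ) ^ 2)⁻¹ * ((1 - ρ) / ρ) ^ T.card * Q c p hcp T := by
  unfold X Q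
  simp only [mul_pow, Ex_const_mul]
  rw [inv_pow, mul_assoc]
  congr 1
  simp only [sq, Finset.sum_mul_sum]
  rw [Ex_sum, Finset.mul_sum]
  refine Finset.sum_congr rfl fun π _ => ?_
  rw [Ex_sum, Finset.mul_sum]
  refine Finset.sum_congr rfl fun π' _ => ?_
  rw [Ex_chi_mul_chi (sum_bw ρ) (sum_bw_xi ρ) (sum_bw_xi_sq hρ), ind_eq_ite,
    Finset.card_image_of_injective _ (act_injective π),
    Finset.card_image_of_injective _ (ed_injective c p hcp hc)]
  split_ifs <;> simp

lemma one_le_sq (hc : Function.Injective c) {ρ : ℝ} (hρ : ρ ≠ 0) (s : κ → Bool)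
    (ω : EdgeSlot n → Bool)
    (h : ¬ ∃ π : Equiv.Perm (Fin n), ∀ k, s k = true → ω (act π (ed c p hcp k)) = true) :
    1 ≤ (∑ T ∈ (univ : Finset (Finset κ)).erase ∅, X c p hcp ρ T ω * chi sg T s) ^ 2 := by
  have hf : (n.factorial : ℝ) ≠ 0 := Nat.cast_ne_zero.2 (Nat.factorial_ne_zero n)
  have h0 : ∑ T : Finset κ, X c p hcp ρ T ω * chi sg T s = 0 := by
    unfold X
    simp only [mul_assoc, Finset.sum_mul]
    rw [← Finset.mul_sum, Finset.sum_comm]
    refine mul_eq_zero_of_right _ (Finset.sum_eq_zero fun π _ => ?_)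
    have h1 := prod_one_add_eq_sum (univ : Finset κ) (fun k => xi ρ (ω (act π (ed c p hcp k))))
      (fun k => sg (s k))
    rw [Finset.powerset_univ] at h1
    have h2 : ∀ T : Finset κ, chi (xi ρ) ((T.image (ed c p hcp)).image (act π)) ω =
        ∏ k ∈ T, xi ρ (ω (act π (ed c p hcp k))) := by
      intro T
      unfold chi
      rw [Finset.prod_image (fun a _ b _ hab => act_injective π hab),
        Finset.prod_image (fun a _ b _ hab => ed_injective c p hcp hc hab)]
    simp only [h2]
    unfold chi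
    rw [← h1]
    push Not at h
    obtain ⟨k, hk, hk'⟩ := h π
    refine Finset.prod_eq_zero (Finset.mem_univ k) ?_
    rw [Ne, Bool.not_eq_true] at hk'
    rw [hk, hk', xi_false hρ]
    simp [sg]
  have h1 : X c p hcp ρ ∅ ω * chi sg ∅ s = 1 := by
    simp [X, Fintype.card_perm, hf]
  rw [← Finset.add_sum_erase _ _ (Finset.mem_univ ∅), h1] at h0
  rw [show ∑ T ∈ (univ : Finset (Finset κ)).erase ∅, X c p hcp ρ T ω * chi sg T s = -1 by
    linarith]
  norm_num

lemma geom_le (m : ℕ) : ∑ t ∈ Finset.Icc 1 m, (1 / 16 : ℝ) ^ t ≤ 1 / 15 - (1 / 16) ^ m / 15 := by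
  induction m with
  | zero => norm_num
  | succ m ih =>
    rw [Finset.sum_Icc_succ_top (by omega), pow_succ]
    linarith

lemma core (hc : Function.Injective c) (E : Finset (EdgeSlot n))
    (hE : ∀ k, ed c p hcp k ∈ E) (r ρ : ℝ) (hr : 0 ≤ r) (hρ0 : 0 < ρ) (hρ1 : ρ ≤ 1)
    (hrρ : 32 * r ≤ ρ)
    (hspread : ∀ T : Finset (EdgeSlot n), T.Nonempty →
      ((Finset.univ.filter (fun π : Equiv.Perm (Fin n) => ∀ e ∈ T, act π e ∈ E)).card : ℝ) ≤
        n.factorial * r ^ T.card) :
    Ex (bw (1 / 2)) (fun s : κ → Bool => Pr (bw ρ) (fun ω : EdgeSlot n → Bool =>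
      ¬ ∃ π : Equiv.Perm (Fin n), ∀ k, s k = true → ω (act π (ed c p hcp k)) = true)) ≤ 1 / 4 := by
  have hh := isProb_bw (p := 1 / 2) (by norm_num) (by norm_num)
  have hw := isProb_bw hρ0.le hρ1
  have hf : (0 : ℝ) < n.factorial := Nat.cast_pos.2 (Nat.factorial_pos n)
  have hv0 : 0 ≤ (1 - ρ) / ρ := div_nonneg (by linarith) hρ0.le
  have hv : (1 - ρ) / ρ * (2 * r) ≤ 1 / 16 := by
    rw [div_mul_eq_mul_div, div_le_iff₀ hρ0]
    nlinarith
  calc _ ≤ Ex (bw (1 / 2)) (fun s : κ → Bool => Ex (bw ρ) (fun ω : EdgeSlot n → Bool =>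
        (∑ T ∈ (univ : Finset (Finset κ)).erase ∅, X c p hcp ρ T ω * chi sg T s) ^ 2)) :=
        Ex_mono hh.nonneg fun s => Pr_le_of_le hw.nonneg (fun _ => sq_nonneg _)
          fun ω h => one_le_sq c p hcp hc hρ0.ne' s ω h
    _ = Ex (bw ρ) (fun ω : EdgeSlot n → Bool =>
        ∑ T ∈ (univ : Finset (Finset κ)).erase ∅, X c p hcp ρ T ω ^ 2) := by
        rw [Ex_swap]
        congr 1
        funext ω
        rw [Ex_sq_sum_chi (sum_bw _) sum_half_sg sum_half_sg_sq]
        simp
    _ = ∑ T ∈ (univ : Finset (Finset κ)).erase ∅,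
        ((n.factorial : ℝ) ^ 2)⁻¹ * ((1 - ρ) / ρ) ^ T.card * Q c p hcp T := by
        rw [Ex_sum]
        exact Finset.sum_congr rfl fun T _ => Ex_X_sq c p hcp hc hρ0.ne' T
    _ = ∑ t ∈ Finset.Icc 1 (Fintype.card κ),
        ∑ T ∈ ((univ : Finset (Finset κ)).erase ∅).filter (fun T => T.card = t),
        ((n.factorial : ℝ) ^ 2)⁻¹ * ((1 - ρ) / ρ) ^ T.card * Q c p hcp T := by
        refine (Finset.sum_fiberwise_of_maps_to (fun T hT => ?_) _).symm
        exact Finset.mem_Icc.2 ⟨Finset.card_pos.2
          (Finset.nonempty_iff_ne_empty.2 (Finset.mem_erase.1 hT).1), Finset.card_le_univ T⟩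
    _ ≤ ∑ t ∈ Finset.Icc 1 (Fintype.card κ), (1 / 16 : ℝ) ^ t := by
        refine Finset.sum_le_sum fun t ht => ?_
        have ht1 : t ≠ 0 := by have := (Finset.mem_Icc.1 ht).1; omega
        have hset : ((univ : Finset (Finset κ)).erase ∅).filter (fun T => T.card = t) =
            univ.filter (fun T : Finset κ => T.card = t) := by
          ext T
          simp only [Finset.mem_filter, Finset.mem_erase, Finset.mem_univ, and_true, true_and,
            and_iff_right_iff_imp]
          rintro h rfl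
          exact ht1 (by simpa using h.symm)
        rw [hset, Finset.sum_congr rfl (g := fun T =>
          ((n.factorial : ℝ) ^ 2)⁻¹ * ((1 - ρ) / ρ) ^ t * Q c p hcp T)
          (fun T hT => by rw [(Finset.mem_filter.1 hT).2]), ← Finset.mul_sum]
        calc _ ≤ ((n.factorial : ℝ) ^ 2)⁻¹ * ((1 - ρ) / ρ) ^ t *
              ((n.factorial : ℝ) ^ 2 * (2 * r) ^ t) :=
              mul_le_mul_of_nonneg_left (sum_Q_le c p hcp hc E hE r hr hspread t ht1)
                (by positivity)
          _ = ((1 - ρ) / ρ * (2 * r)) ^ t := by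
              rw [mul_pow ((1 - ρ) / ρ)]; field_simp
          _ ≤ (1 / 16) ^ t := pow_le_pow_left₀ (by positivity) hv t
    _ ≤ 1 / 4 := by
        have := geom_le (Fintype.card κ)
        have h2 : (0 : ℝ) ≤ (1 / 16) ^ Fintype.card κ := by positivity
        linarith

end main

end Crest.Agent.R52.StarForest

namespace Crest.Agent.R52

open Crest.CombinatoricsR.RandomGraph

/-- Signed second moment for star forests. -/
theorem star_forest {n : ℕ} (N : Fin n → Finset (Fin n)) (h1 : ∀ a, (N a).card ≤ 1)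
    (hstar : ∀ a, ∀ b ∈ N a, N b = ∅) (E : Finset (EdgeSlot n))
    (hE : ∀ a, ∀ b ∈ N a, ∃ h : a ≠ b, slot a b h ∈ E) (r ρ : ℝ) (hr : 0 ≤ r) (hρ0 : 0 < ρ)
    (hρ1 : ρ ≤ 1) (hrρ : 32 * r ≤ ρ)
    (hspread : ∀ T : Finset (EdgeSlot n), T.Nonempty →
      ((Finset.univ.filter (fun π : Equiv.Perm (Fin n) => ∀ e ∈ T, act π e ∈ E)).card : ℝ) ≤
        n.factorial * r ^ T.card) :
    failAvg ρ N ≤ 1 / 4 := by
  let κ := {a : Fin n // (N a).Nonempty}
  let c : κ → Fin n := fun k => k.1
  let p : κ → Fin n := fun k => k.2.choose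
  have hp : ∀ k : κ, p k ∈ N k.1 := fun k => k.2.choose_spec
  have hc : Function.Injective c := Subtype.val_injective
  have hcp : ∀ k k', c k ≠ p k' := by
    intro k k' h
    have h2 := k.2
    have h3 : N (c k) = ∅ := h ▸ hstar _ _ (hp k')
    exact h2.ne_empty h3
  have hE' : ∀ k, StarForest.ed c p hcp k ∈ E := fun k => by
    obtain ⟨_, h⟩ := hE _ _ (hp k)
    exact h
  have hcore := StarForest.core c p hcp hc E hE' r ρ hr hρ0 hρ1 hrρ hspread
  have hinj : Function.Injective (fun k : κ => (c k, p k)) := fun k k' h =>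
    hc (congrArg Prod.fst h)
  rw [← Ex_comp_inj (sum_bw _) hinj] at hcore
  refine le_trans ?_ hcore
  unfold failAvg
  refine Ex_mono (isProb_bw (by norm_num) (by norm_num)).nonneg fun s => ?_
  refine Pr_mono (isProb_bw hρ0.le hρ1).nonneg fun ω h => ?_
  rintro ⟨π, hπ⟩
  refine h ⟨π, fun a b hb => ?_⟩
  obtain ⟨hb1, hb2⟩ := Finset.mem_filter.1 hb
  let k : κ := ⟨a, b, hb1⟩
  have hbk : b = p k := Finset.card_le_one.1 (h1 a) _ hb1 _ (hp k)
  have h2 := hπ k (show s (a, p k) = true from hbk ▸ hb2)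
  rw [graphOf_adj, hbk]
  exact ⟨fun h' => hcp k k (π.injective h'), h2⟩

end Crest.Agent.R52
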